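import Vale.Agent.P088.R2.H747.P.Tt

/-!
# P088, stage 3: the flat pass, the cut-offs between the inner and the outer zone
-/

open MeasureTheory Set Filter
open scoped ContDiff Topology

noncomputable section

namespace Vale.Agent.P088.R2.H747.P

open Vale.Agent.P088.R2.H961.GW Vale.Agent.P088.R2.H644 Vale.Agent.P088.R2.H960.W
  Vale.Agent.P088.R2.H230.W Vale.Agent.P088.R2.H551.E Vale.Agent.P088.R2.H660.P
open Vale.Agent.P088.R2.H644.Ch (Cp D_comp DD_comp)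
open Vale.Agent.P088.R2.H867.EP (an cs sn cs_sm sn_sm cs_sn cs_nn sn_nn cs_le sn_le cs_zero
  sn_zero cs_one sn_one Stp cs_stp sn_stp an_sm)

/-! ## The steps -/

theorem st_stp : Stp Real.smoothTransition :=
  ⟨Real.smoothTransition.contDiff, Real.smoothTransition.nonneg, Real.smoothTransition.le_one,
    ⟨0, fun _ h => Real.smoothTransition.zero_of_nonpos h⟩,
    ⟨1, fun _ h => Real.smoothTransition.one_of_one_le h⟩⟩

theorem d1_eq (f : ℝ → ℝ) : iteratedDeriv 1 f = deriv f := iteratedDeriv_one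

theorem d2_eq (f : ℝ → ℝ) : iteratedDeriv 2 f = deriv (deriv f) := by
  rw [iteratedDeriv_succ, iteratedDeriv_one]

theorem an_d (t : ℝ) : deriv an t = Real.pi / 2 * deriv Real.smoothTransition t := by
  have h : DifferentiableAt ℝ Real.smoothTransition t :=
    (Real.smoothTransition.contDiff (n := 1)).differentiable (by norm_num) t
  exact (h.hasDerivAt.const_mul (Real.pi / 2)).deriv

/-- The steps `f` with the weight `p`: `|f'| ≤ B p`, `|f''| ≤ B`, locally constant off `(0, 1)`. -/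
structure Wp (f p : ℝ → ℝ) (B : ℝ) : Prop where
  B1 : 1 ≤ B
  sm : ContDiff ℝ ∞ f
  p0 : ∀ t, 0 ≤ p t
  p1 : ∀ t, p t ≤ 1
  d1 : ∀ t, |deriv f t| ≤ B * p t
  d2 : ∀ t, |deriv (deriv f) t| ≤ B
  z1 : ∀ t, t ≤ 0 ∨ 1 ≤ t → deriv f t = 0
  z2 : ∀ t, t ≤ 0 ∨ 1 ≤ t → deriv (deriv f) t = 0

theorem an_d0 {t : ℝ} (ht : t ≤ 0 ∨ 1 ≤ t) : deriv an t = 0 := by
  rw [an_d, ← d1_eq, st_stp.vanish le_rfl ht, mul_zero]

theorem an_dd (t : ℝ) : deriv (deriv an) t = Real.pi / 2 * deriv (deriv Real.smoothTransition) t := by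
  have h0 : deriv an = fun t => Real.pi / 2 * deriv Real.smoothTransition t := funext an_d
  have h1 : ContDiff ℝ ∞ (deriv Real.smoothTransition) :=
    (contDiff_infty_iff_deriv.1 Real.smoothTransition.contDiff).2
  have h : DifferentiableAt ℝ (deriv Real.smoothTransition) t := h1.differentiable (by simp) t
  rw [h0]
  exact (h.hasDerivAt.const_mul (Real.pi / 2)).deriv

theorem ex_B : ∃ B : ℝ, Wp an (fun _ => 1) B := by
  obtain ⟨B₀, b0, h0⟩ := st_stp.bdd 1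
  obtain ⟨B₁, b1, h1⟩ := st_stp.bdd 2
  rw [d1_eq] at h0
  rw [d2_eq] at h1
  have hp : |Real.pi / 2| ≤ 2 := by
    rw [abs_of_pos (by positivity)]
    linarith [Real.pi_le_four]
  refine ⟨2 * B₀ + 2 * B₁, ⟨by linarith, an_sm, fun _ => zero_le_one, fun _ => le_rfl,
    fun t => ?_, fun t => ?_, fun t ht => an_d0 ht, fun t ht => ?_⟩⟩
  · rw [an_d, abs_mul, mul_one]
    have := mul_le_mul hp (h0 t) (abs_nonneg _) (by norm_num)
    linarith
  · rw [an_dd, abs_mul]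
    have := mul_le_mul hp (h1 t) (abs_nonneg _) (by norm_num)
    linarith
  · rw [an_dd, ← d2_eq, st_stp.vanish (by norm_num) ht, mul_zero]

/-- The bound of the derivatives of the angle. -/
def cB : ℝ := ex_B.choose

theorem an_wp : Wp an (fun _ => 1) cB := ex_B.choose_spec

/-- `K₂ = 9 B² N³ C₁²`. -/
def K2 (N C₁ : ℝ) : ℝ := 9 * cB ^ 2 * N ^ 3 * C₁ ^ 2

/-- `K₄ = 43 B N⁴ C₁²`. -/
def K4 (N C₁ : ℝ) : ℝ := 43 * cB * N ^ 4 * C₁ ^ 2

theorem cB1 : 1 ≤ cB := an_wp.B1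

theorem K2_ge {N C₁ : ℝ} (hN : 1 ≤ N) (hC : 1 ≤ C₁) : 9 ≤ K2 N C₁ := by
  have h1 : 1 ≤ cB ^ 2 := one_le_pow₀ cB1
  have h2 : 1 ≤ N ^ 3 := one_le_pow₀ hN
  have h3 : 1 ≤ C₁ ^ 2 := one_le_pow₀ hC
  have h4 := one_le_mul_of_one_le_of_one_le (one_le_mul_of_one_le_of_one_le h1 h2) h3
  unfold K2
  have e : 9 * cB ^ 2 * N ^ 3 * C₁ ^ 2 = 9 * (cB ^ 2 * N ^ 3 * C₁ ^ 2) := by ring
  rw [e]
  linarith

theorem K4_pos {N C₁ : ℝ} (hN : 1 ≤ N) (hC : 1 ≤ C₁) : 0 < K4 N C₁ := by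
  have := cB1
  unfold K4
  positivity

/-! ## The cut-offs -/

variable {E ι : Type*} [NormedAddCommGroup E] [NormedSpace ℝ E] [Fintype ι]
  {σ τ ρ : Sl E ι} {Ω : Set E} {θ θ' W G t : E → ℝ} {C₁ C M κ ε : ℝ} {z : E} {f p : ℝ → ℝ}
  {B : ℝ}

theorem Wp.cp (h : Wp f p B) (ht : Sm Ω t) : Cp Ω t f (deriv f) (deriv (deriv f)) := by
  have s1 : ContDiff ℝ ∞ (deriv f) := (contDiff_infty_iff_deriv.1 h.sm).2
  exact Cp.of ht h.sm s1 (fun t => (h.sm.differentiable (by simp) t).hasDerivAt)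
    fun t => (s1.differentiable (by simp) t).hasDerivAt

/-- The first derivatives of a cut-off. -/
theorem cut1 [DecidableEq ι] (h : Wp f p cB) (or : ρ.Ok Ω θ') (ok : σ.Ok Ω θ) (hW : Sm Ω W) (hG : Sm Ω G)
    (h0 : ∀ z ∈ Ω, G z ≠ 0) (hz : z ∈ Ω) (n : Nt (Fintype.card ι) C₁ C M κ (G z))
    (hD : ∀ j, |ρ.D j G z| ≤ C * G z) (hDD : ∀ i j, |ρ.D i (σ.D j W) z| ≤ C₁ * κ * G z) :
    M * dD ρ (fun z => f (tt σ W G (M * κ) z)) z ≤
      2 * K2 (Fintype.card ι) C₁ * p (tt σ W G (M * κ) z) ^ 2 * (κ * G z) ∧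
    nn (gr σ W z) ^ 2 * dD ρ (fun z => f (tt σ W G (M * κ) z)) z ≤
      4 * K2 (Fintype.card ι) C₁ * p (tt σ W G (M * κ) z) ^ 2 * (κ * G z) ^ 2 := by
  have k0 := n.κ0; have G1 := n.G1; have C1 := n.C1; have M1 := n.M1; have C₁1 := n.C₁1
  have N1 := n.N1
  have hm : M * κ ≠ 0 := by positivity
  have G0 : 0 < G z := by linarith
  have st := tt_sm ok hW hG hm h0
  have e0 : ∀ i, ρ.D i (fun z => f (tt σ W G (M * κ) z)) z =
      deriv f (tt σ W G (M * κ) z) * ρ.D i (tt σ W G (M * κ)) z := fun i =>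
    D_comp or.op (h.cp st) i hz
  have hK := K2_ge N1 C₁1
  have kg : 0 < κ * G z := by positivity
  by_cases ht : 0 ≤ tt σ W G (M * κ) z ∧ tt σ W G (M * κ) z ≤ 1
  swap
  · have hd : deriv f (tt σ W G (M * κ) z) = 0 := by
      refine h.z1 _ ?_
      by_contra hc
      push Not at hc
      exact ht ⟨hc.1.le, hc.2.le⟩
    have e1 : dD ρ (fun z => f (tt σ W G (M * κ) z)) z = 0 := by
      unfold dD
      refine Finset.sum_eq_zero fun i _ => ?_
      rw [e0 i, hd]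
      ring
    rw [e1, mul_zero, mul_zero]
    constructor <;> positivity
  obtain ⟨ht0, ht1⟩ := ht
  have d1 := tt1 (ρ := ρ) ok hW hG h0 hz n hD hDD ht0 ht1
  obtain ⟨w, hw⟩ : ∃ w, w = nn (gr σ W z) := ⟨_, rfl⟩
  have w0 : 0 ≤ w := by rw [hw]; exact nn_nonneg _
  have up : w ^ 2 ≤ 2 * M * (κ * G z) := by
    have id0 : w ^ 2 = M * κ * ((1 + tt σ W G (M * κ) z) * G z) := by
      rw [hw, ← dD_nn]; exact tt_id hm (h0 z hz)
    rw [id0]
    have h2 : 0 ≤ 1 - tt σ W G (M * κ) z := by linarith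
    have : 0 ≤ M * κ * G z * (1 - tt σ W G (M * κ) z) := by positivity
    linarith
  rw [← hw] at d1 ⊢
  obtain ⟨P, hP⟩ : ∃ P, P = p (tt σ W G (M * κ) z) := ⟨_, rfl⟩
  have hf : |deriv f (tt σ W G (M * κ) z)| ≤ cB * P := by rw [hP]; exact h.d1 _
  have P0 : 0 ≤ P := by rw [hP]; exact h.p0 _
  rw [← hP]
  obtain ⟨X, hX⟩ : ∃ X, X = dD ρ (fun z => f (tt σ W G (M * κ) z)) z := ⟨_, rfl⟩
  have X0 : 0 ≤ X := by rw [hX]; exact Finset.sum_nonneg fun _ _ => sq_nonneg _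
  have key : M ^ 2 * X ≤ K2 (Fintype.card ι) C₁ * P ^ 2 * w ^ 2 := by
    have t1 : ∀ i, M ^ 2 * ρ.D i (fun z => f (tt σ W G (M * κ) z)) z ^ 2 ≤
        (cB * P) ^ 2 * (3 * Fintype.card ι * C₁ * w) ^ 2 := by
      intro i
      rw [e0 i]
      have a1 : M * |deriv f (tt σ W G (M * κ) z) * ρ.D i (tt σ W G (M * κ)) z| ≤
          cB * P * (3 * Fintype.card ι * C₁ * w) := by
        rw [abs_mul]
        have := mul_le_mul hf (d1 i) (by positivity) (mul_nonneg (by linarith [cB1]) P0)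
        calc _ = |deriv f (tt σ W G (M * κ) z)| * (M * |ρ.D i (tt σ W G (M * κ)) z|) := by ring
          _ ≤ _ := this
      have a2 := pow_le_pow_left₀ (by positivity) a1 2
      calc _ = (M * |deriv f (tt σ W G (M * κ) z) * ρ.D i (tt σ W G (M * κ)) z|) ^ 2 := by
            rw [mul_pow M, sq_abs]
        _ ≤ _ := a2
        _ = _ := by ring
    rw [hX]
    unfold dD
    rw [Finset.mul_sum]
    calc _ ≤ ∑ _i : ι, (cB * P) ^ 2 * (3 * Fintype.card ι * C₁ * w) ^ 2 :=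
          Finset.sum_le_sum fun i _ => t1 i
      _ = _ := by
          rw [Finset.sum_const, Finset.card_univ, nsmul_eq_mul]
          unfold K2
          ring
  rw [← hX]
  have M0 : 0 < M := by linarith
  have kp : 0 ≤ K2 (Fintype.card ι) C₁ * P ^ 2 := by positivity
  constructor
  · have h1 := mul_le_mul_of_nonneg_left up kp
    have h2 : M * (M * X) ≤ M * (2 * K2 (Fintype.card ι) C₁ * P ^ 2 * (κ * G z)) := by
      linarith
    exact le_of_mul_le_mul_left h2 M0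
  · have h1 : w ^ 2 * w ^ 2 ≤ (2 * M * (κ * G z)) * (2 * M * (κ * G z)) :=
      mul_le_mul up up (sq_nonneg _) (by positivity)
    have h2 := mul_le_mul_of_nonneg_left h1 kp
    have h3 := mul_le_mul_of_nonneg_left key (sq_nonneg w)
    have h4 : M ^ 2 * (w ^ 2 * X) ≤
        M ^ 2 * (4 * K2 (Fintype.card ι) C₁ * P ^ 2 * (κ * G z) ^ 2) := by
      linarith
    exact le_of_mul_le_mul_left h4 (by positivity)

/-- The operator `Λ` of a cut-off. -/
theorem cut2 [DecidableEq ι] [Nonempty ι] (h : Wp f p cB) (ok : σ.Ok Ω θ) (hW : Sm Ω W)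
    (hG : Sm Ω G) (h0 : ∀ z ∈ Ω, G z ≠ 0) (hz : z ∈ Ω)
    (n : Nt (Fintype.card ι) C₁ C M κ (G z)) (S : Sb σ ε z)
    (hε : 20 * (Fintype.card ι * ε) ≤ 1)
    (hD : ∀ j, |σ.D j G z| ≤ C * G z) (hDD : ∀ i j, |σ.D i (σ.D j W) z| ≤ C₁ * κ * G z)
    (g2 : ∀ i j, |σ.D i (σ.D j G) z| ≤ C * G z)
    (w3 : ∀ i j k, |σ.D i (σ.D j (σ.D k W)) z| ≤ C * G z) :
    M * |σ.Λ (fun z => f (tt σ W G (M * κ) z)) z| ≤
      K4 (Fintype.card ι) C₁ * (κ * G z) := by
  have k0 := n.κ0; have G1 := n.G1; have C1 := n.C1; have M1 := n.M1; have C₁1 := n.C₁1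
  have N1 := n.N1; have k1 := n.κ1
  have hm : M * κ ≠ 0 := by positivity
  have G0 : 0 < G z := by linarith
  have st := tt_sm ok hW hG hm h0
  have kg : 0 < κ * G z := by positivity
  have M0 : 0 < M := by linarith
  have B1 := cB1
  have e0 : ∀ i, σ.D i (fun z => f (tt σ W G (M * κ) z)) z =
      deriv f (tt σ W G (M * κ) z) * σ.D i (tt σ W G (M * κ)) z := fun i =>
    D_comp ok.op (h.cp st) i hz
  have e2 : ∀ i j, σ.D i (σ.D j (fun z => f (tt σ W G (M * κ) z))) z =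
      deriv f (tt σ W G (M * κ) z) * σ.D i (σ.D j (tt σ W G (M * κ))) z +
        deriv (deriv f) (tt σ W G (M * κ) z) * σ.D i (tt σ W G (M * κ)) z *
          σ.D j (tt σ W G (M * κ)) z := fun i j =>
    DD_comp ok ok (h.cp st) i j hz
  have ε0 : 0 ≤ ε := (abs_nonneg _).trans (S.ss (Classical.arbitrary ι) (Classical.arbitrary ι))
  have ε1 : ε ≤ 1 := by
    have : 1 * ε ≤ Fintype.card ι * ε := mul_le_mul_of_nonneg_right N1 ε0
    linarith
  obtain ⟨N, hN⟩ : ∃ N : ℝ, N = Fintype.card ι := ⟨_, rfl⟩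
  have N1' : 1 ≤ N := by rw [hN]; exact N1
  -- bounds of the derivatives
  have hb : (∀ i j, M * |σ.D i (σ.D j (fun z => f (tt σ W G (M * κ) z))) z| ≤
      21 * cB * N ^ 2 * C₁ ^ 2 * (κ * G z)) ∧
      (∀ j, M * |σ.D j (fun z => f (tt σ W G (M * κ) z)) z| ≤ cB * N * C₁ * (κ * G z)) := by
    by_cases ht : 0 ≤ tt σ W G (M * κ) z ∧ tt σ W G (M * κ) z ≤ 1
    swap
    · have ho : tt σ W G (M * κ) z ≤ 0 ∨ 1 ≤ tt σ W G (M * κ) z := by
        by_contra hc
        push Not at hc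
        exact ht ⟨hc.1.le, hc.2.le⟩
      constructor
      · intro i j
        rw [e2 i j, h.z1 _ ho, h.z2 _ ho]
        simp only [zero_mul, add_zero, abs_zero, mul_zero]
        positivity
      · intro j
        rw [e0 j, h.z1 _ ho]
        simp only [zero_mul, abs_zero, mul_zero]
        positivity
    obtain ⟨ht0, ht1⟩ := ht
    have d1 := tt1 (ρ := σ) ok hW hG h0 hz n hD hDD ht0 ht1
    have d2 := tt2 ok hW hG h0 hz n hD hDD g2 w3 ht0 ht1
    rw [← hN] at d1 d2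
    obtain ⟨w, hw⟩ : ∃ w, w = nn (gr σ W z) := ⟨_, rfl⟩
    have w0 : 0 ≤ w := by rw [hw]; exact nn_nonneg _
    have up : w ^ 2 ≤ 2 * M * (κ * G z) := by
      have id0 : w ^ 2 = M * κ * ((1 + tt σ W G (M * κ) z) * G z) := by
        rw [hw, ← dD_nn]; exact tt_id hm (h0 z hz)
      rw [id0]
      have h2 : 0 ≤ 1 - tt σ W G (M * κ) z := by linarith
      have : 0 ≤ M * κ * G z * (1 - tt σ W G (M * κ) z) := by positivity
      linarith
    have cw := n.cw up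
    rw [← hw] at d1
    have wk : 3 * w ≤ κ * G z := by
      have h1 : w ≤ C * w := le_mul_of_one_le_left w0 C1
      have h2 : κ * (κ * G z) ≤ κ * G z := mul_le_of_le_one_left kg.le k1
      linarith
    have f1 : |deriv f (tt σ W G (M * κ) z)| ≤ cB := by
      refine (h.d1 _).trans ?_
      exact mul_le_of_le_one_right (by linarith) (h.p1 _)
    have f2 := h.d2 (tt σ W G (M * κ) z)
    constructor
    · intro i j
      rw [e2 i j]
      obtain ⟨a, ha⟩ : ∃ a, a = σ.D i (tt σ W G (M * κ)) z := ⟨_, rfl⟩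
      obtain ⟨b, hb⟩ : ∃ b, b = σ.D j (tt σ W G (M * κ)) z := ⟨_, rfl⟩
      obtain ⟨D, hD'⟩ : ∃ D, D = σ.D i (σ.D j (tt σ W G (M * κ))) z := ⟨_, rfl⟩
      have di := d1 i
      have dj := d1 j
      have dij := d2 i j
      rw [← ha] at di ⊢
      rw [← hb] at dj ⊢
      rw [← hD'] at dij ⊢
      have p1 : M * |deriv f (tt σ W G (M * κ) z) * D| ≤
          cB * (3 * N * C₁ ^ 2 * (κ * G z)) := by
        rw [abs_mul]
        have := mul_le_mul f1 dij (by positivity) (by linarith)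
        calc _ = |deriv f (tt σ W G (M * κ) z)| * (M * |D|) := by ring
          _ ≤ _ := this
      have p2 : M * (M * |deriv (deriv f) (tt σ W G (M * κ) z) * a * b|) ≤
          cB * ((3 * N * C₁ * w) * (3 * N * C₁ * w)) := by
        rw [abs_mul, abs_mul]
        have h1 := mul_le_mul di dj (by positivity) (by positivity)
        have := mul_le_mul f2 h1 (by positivity) (by linarith)
        calc _ = |deriv (deriv f) (tt σ W G (M * κ) z)| * (M * |a| * (M * |b|)) := by ring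
          _ ≤ _ := this
      have p3 : cB * ((3 * N * C₁ * w) * (3 * N * C₁ * w)) ≤
          M * (cB * (18 * N ^ 2 * C₁ ^ 2 * (κ * G z))) := by
        have := mul_le_mul_of_nonneg_left up (by positivity : 0 ≤ cB * (9 * N ^ 2 * C₁ ^ 2))
        linarith
      have p4 := le_of_mul_le_mul_left (p2.trans p3) M0
      have p5 : N ≤ N ^ 2 := by nlinarith
      have p6 : cB * (3 * N * C₁ ^ 2 * (κ * G z)) ≤ cB * (3 * N ^ 2 * C₁ ^ 2 * (κ * G z)) := by
        gcongr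
      have p7 : M * |deriv f (tt σ W G (M * κ) z) * D +
          deriv (deriv f) (tt σ W G (M * κ) z) * a * b| ≤
          M * |deriv f (tt σ W G (M * κ) z) * D| +
          M * |deriv (deriv f) (tt σ W G (M * κ) z) * a * b| := by
        rw [← mul_add]
        exact mul_le_mul_of_nonneg_left (abs_add_le _ _) M0.le
      linarith
    · intro j
      rw [e0 j, abs_mul]
      have := mul_le_mul f1 (d1 j) (by positivity) (by linarith)
      calc M * (|deriv f (tt σ W G (M * κ) z)| * |σ.D j (tt σ W G (M * κ)) z|) =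
            |deriv f (tt σ W G (M * κ) z)| * (M * |σ.D j (tt σ W G (M * κ)) z|) := by ring
        _ ≤ cB * (3 * N * C₁ * w) := this
        _ = cB * N * C₁ * (3 * w) := by ring
        _ ≤ _ := mul_le_mul_of_nonneg_left wk (by positivity)
  obtain ⟨H2, H1⟩ := hb
  have L := S.Λ_le hε (f := fun z => f (tt σ W G (M * κ) z))
    (H := 21 * cB * N ^ 2 * C₁ ^ 2 * (κ * G z) / M) (D := cB * N * C₁ * (κ * G z) / M)
    (fun i j => by rw [le_div_iff₀ M0, mul_comm]; exact H2 i j)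
    (fun j => by rw [le_div_iff₀ M0, mul_comm]; exact H1 j)
  rw [← hN] at L ⊢
  have L2 := mul_le_mul_of_nonneg_left L M0.le
  refine L2.trans ?_
  have e3 : M * (N ^ 2 * (2 * (21 * cB * N ^ 2 * C₁ ^ 2 * (κ * G z) / M) +
      ε * (cB * N * C₁ * (κ * G z) / M))) =
      N ^ 2 * (42 * cB * N ^ 2 * C₁ ^ 2 * (κ * G z) + ε * (cB * N * C₁ * (κ * G z))) := by
    field_simp
    ring
  rw [e3]
  have q1 : ε * (cB * N * C₁ * (κ * G z)) ≤ 1 * (cB * N ^ 2 * C₁ ^ 2 * (κ * G z)) := by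
    have a1 : N ≤ N ^ 2 := by nlinarith
    have a2 : C₁ ≤ C₁ ^ 2 := by nlinarith
    have a3 : cB * N * C₁ * (κ * G z) ≤ cB * N ^ 2 * C₁ ^ 2 * (κ * G z) := by gcongr
    exact mul_le_mul ε1 a3 (by positivity) zero_le_one
  have q2 : N ^ 2 * (42 * cB * N ^ 2 * C₁ ^ 2 * (κ * G z) + ε * (cB * N * C₁ * (κ * G z))) ≤
      N ^ 2 * (42 * cB * N ^ 2 * C₁ ^ 2 * (κ * G z) +
        1 * (cB * N ^ 2 * C₁ ^ 2 * (κ * G z))) :=
    mul_le_mul_of_nonneg_left (by linarith) (by positivity)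
  refine q2.trans (le_of_eq ?_)
  unfold K4
  ring

end Vale.Agent.P088.R2.H747.P
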