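import Vale.Agent.P088.R2.H660.P.Zi
import Vale.Agent.P088.R2.H660.P.Let
import Vale.Agent.P088.R2.H858.P.OutV
import Vale.Agent.P088.R2.H867.EP.Step

/-!
# P088, stage 3: the flat pass, the data at a point and the cut between the inner and the outer zone
-/

open MeasureTheory Set Filter
open scoped ContDiff Topology

noncomputable section

namespace Vale.Agent.P088.R2.H747.P

open Vale.Agent.P088.R2.H961.GW Vale.Agent.P088.R2.H644 Vale.Agent.P088.R2.H960.W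
  Vale.Agent.P088.R2.H230.W Vale.Agent.P088.R2.H551.E Vale.Agent.P088.R2.H660.P
open Vale.Agent.P088.R2.H660.W (lat)

variable {E ι : Type*} [NormedAddCommGroup E] [NormedSpace ℝ E] [Fintype ι] [DecidableEq ι]

/-- The data of the flat pass at a point (`σ` is the slot of the critical gradient). -/
structure Dt (σ τ : Sl E ι) (v₁ v₂ W G K : E → ℝ) (h e : ι → E → ℝ) (κ C₁ C β ε εz : ℝ) (z : E) :
    Prop where
  sx : Sb σ ε z
  sy : Sb τ ε z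
  wb : Wb σ τ v₁ v₂ W G κ C₁ C z
  g2 : ∀ i j, |σ.D i (σ.D j G) z| ≤ C * G z
  mx : ∀ i j, |τ.D i (σ.D j W) z| ≤ C₁ * κ * G z
  w3 : ∀ i j k, |σ.D i (σ.D j (σ.D k W)) z| ≤ C * G z
  K1 : κ * G z ≤ K z
  K2 : K z ≤ 9 / 4 * κ * G z
  dK : ∀ i, |σ.D i K z| ≤ C * K z
  dh : ∀ i j, |σ.D i (h j) z| ≤ C
  h2 : ∃ (e' : ι → ℝ) (b : ℝ), H2 σ W e' (fun i => h i z) (K z) b εz z
  G2 : Ch.G2 σ W z ≤ ((Fintype.card ι : ℝ) - 1 + 3 / 10) * K z ^ 2
  ct : ∀ A B : ι → ℝ, 4 / 5 * K z * lat (fun i => h i z) (sU σ z A) -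
    β * κ * G z * dd (sU σ z A) (sU σ z A) + G z / 12 * dd (sU τ z B) (sU τ z B) ≤
    Ch.TH σ τ W z A B + tc τ (cq τ W G) W z B
  ee : dd (fun j => e j z) (fun j => e j z) = 1
  de : ∀ i, nn (fun j => σ.D i (e j) z) ≤ 1
  co : 0 < dd (gr σ W z) (gr σ W z) → ∀ A B : ι → ℝ,
    1 / 8 * κ * G z * (dd A A + dd B B) ≤ Ch.TH σ τ W z A B +
      tc σ (cv σ e W fun l z => -(1 / 3 * κ * G z) * e l z) W z A + tc τ (cq τ W G) W z B

/-- The cost function: `|D_x χ|² + |D_y χ|² + (Λ_x χ)²`. -/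
def om (σ τ : Sl E ι) (χ : E → ℝ) (z : E) : ℝ := dD σ χ z + dD τ χ z + σ.Λ χ z ^ 2

end Vale.Agent.P088.R2.H747.P
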