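import Vale.Agent.P088.R2.H747.P.Ph
import Vale.Agent.P088.R2.H660.G.Num

/-!
# P088, stage 3: the flat pass, the numbers exist
-/

open Set Filter
open scoped Topology

noncomputable section

namespace Vale.Agent.P088.R2.H747.P

open Vale.Agent.P088.R2.H660.G Vale.Agent.P088.R2.H660.P

theorem KP_ge {N C₁ : ℝ} (hN : 1 ≤ N) (hC : 1 ≤ C₁) : 18 ≤ KP N C₁ := by
  have := K2_ge hN hC
  have := K4_pos hN hC
  unfold KP
  linarith

/-- The numbers of the cut. -/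
theorem gn_ex {N C₁ Cz : ℝ} (hN : 3 ≤ N) (hC₁ : 1 ≤ C₁) (hCz : 0 < Cz) :
    ∃ η : ℝ, 0 < η ∧ η ≤ 1 / 200 ∧ ∀ M₀ : ℝ, 1 ≤ M₀ → ∃ M β CP : ℝ, 2 * M₀ ≤ M ∧ 0 < β ∧
      64 * β * (21 / 10 * (3 * M) + 3 * N ^ 2 * C₁) ≤ 1 ∧ 0 < CP ∧
      ∀ κ : ℝ, 0 < κ → κ ≤ 1 → ∃ ρ : ℝ, 0 < ρ ∧
        GN M κ β (1 / 8) η Cz (KP N C₁ / M) ρ CP := by
  obtain ⟨K, hK⟩ : ∃ K, K = KP N C₁ := ⟨_, rfl⟩
  have K18 : 18 ≤ K := by rw [hK]; exact KP_ge (by linarith) hC₁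
  have K0 : 0 < K := by linarith
  have η0 : 0 < 1 / (100000 * K) := by positivity
  refine ⟨1 / (100000 * K), η0, ?_, fun M₀ hM₀ => ?_⟩
  · rw [div_le_div_iff₀ (by positivity) (by norm_num)]
    linarith
  obtain ⟨M, hM⟩ : ∃ M, M = 2 * M₀ + 4204800 * (Cz ^ 2 * K) + 250000 * K ^ 2 + 40000 * K +
    3 * N ^ 2 * C₁ := ⟨_, rfl⟩
  have p1 : 0 ≤ Cz ^ 2 * K := by positivity
  have p2 : 0 ≤ K ^ 2 := by positivity
  have p3 : 0 ≤ 3 * N ^ 2 * C₁ := by positivity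
  have M720 : 720000 ≤ M := by rw [hM]; linarith
  have M0 : 0 < M := by linarith
  have m3 : 3 * N ^ 2 * C₁ ≤ M := by rw [hM]; linarith
  obtain ⟨Q, hQ⟩ : ∃ Q, Q = 21 / 10 * (3 * M) + 3 * N ^ 2 * C₁ := ⟨_, rfl⟩
  have Q0 : 0 < Q := by rw [hQ]; linarith
  have Qle : Q ≤ 73 / 10 * M := by rw [hQ]; linarith
  have Qge : 63 / 10 * M ≤ Q := by rw [hQ]; linarith
  have β0 : 0 < 1 / (64 * Q) := by positivity
  refine ⟨M, 1 / (64 * Q), 43800 * Cz ^ 2 + 1000 + 7 / (1 / (100000 * K)), by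
    rw [hM]; linarith, β0, ?_, by positivity, fun κ κ0 κ1 => ?_⟩
  · rw [← hQ]
    have : 64 * (1 / (64 * Q)) * Q = 1 := by field_simp
    exact this.le
  obtain ⟨β, hβ⟩ : ∃ β, β = 1 / (64 * Q) := ⟨_, rfl⟩
  have b0 : 0 < β := by rw [hβ]; exact β0
  have bQ : β * (64 * Q) = 1 := by rw [hβ]; field_simp
  have bM : β * (403 * M) ≤ 1 := by
    rw [← bQ]
    exact mul_le_mul_of_nonneg_left (by linarith) b0.le
  have b1 : 290000000 * β ≤ 1 := by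
    have := mul_le_mul_of_nonneg_left M720 b0.le
    linarith
  have k2 : κ ^ 2 ≤ κ := by
    rw [sq]; exact mul_le_of_le_one_left κ0.le κ1
  have bk : β * κ ^ 2 ≤ β * κ := mul_le_mul_of_nonneg_left k2 b0.le
  have bk1 : β * κ ≤ β := mul_le_of_le_one_right b0.le κ1
  rw [← hK, ← hβ]
  refine ⟨β * κ ^ 2, by positivity, ?_⟩
  refine ⟨by linarith, κ0, κ1, b0, by norm_num, by norm_num, η0, ?_, by positivity, ?_, ?_, ?_,
    ?_, ?_, by positivity, bk, ?_, ?_, ?_, ?_, le_rfl⟩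
  · rw [div_le_div_iff₀ (by positivity) (by norm_num)]
    linarith
  · -- d1
    have : 43800 * Cz ^ 2 * (K / M) = 43800 * (Cz ^ 2 * K) / M := by ring
    rw [this, div_le_iff₀ M0]
    have : 4204800 * (Cz ^ 2 * K) ≤ M := by rw [hM]; linarith
    linarith
  · -- d2
    have : 5000 * (K / M) = 5000 * K / M := by ring
    rw [this, div_le_iff₀ M0]
    have : 40000 * K ≤ M := by rw [hM]; linarith
    linarith
  · -- d3
    have e1 : 64 * (1 / (100000 * K)) * (K / M) = 64 / 100000 / M := by field_simp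
    rw [e1, div_le_iff₀ M0]
    have e2 : β * (64 * Q) ≤ β * (64 * (73 / 10 * M)) :=
      mul_le_mul_of_nonneg_left (by linarith) b0.le
    rw [bQ] at e2
    linarith
  · -- d4
    have e1 : 20 * (1 / 8 * (K / M)) = 5 / 2 * K / M := by ring
    rw [e1, div_le_div_iff₀ M0 (by positivity)]
    have e2 : 250000 * K ^ 2 ≤ M := by rw [hM]; linarith
    linarith
  · -- d5
    have e1 : 1200 * (1 / (100000 * K) * (M * (K / M))) = 1200 / 100000 := by field_simp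
    rw [e1]
    norm_num
  · -- r2
    have e1 : β * κ ^ 2 * (1 / κ ^ 2 + 21 / 10 * (M / κ)) = β + 21 / 10 * (β * M * κ) := by
      field_simp
    rw [e1]
    have e2 : β * M * κ ≤ β * M := mul_le_of_le_one_right (by positivity) κ1
    linarith
  · -- r3
    have e1 : β * κ ^ 2 * (20 / 19 * (1 / κ ^ 2) + 1 / κ) = 20 / 19 * β + β * κ := by
      field_simp
    rw [e1]
    linarith
  · -- r4
    have e1 : β * κ ≤ 1 / 48 * κ := mul_le_mul_of_nonneg_right (by linarith) κ0.le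
    linarith
  · linarith

/-- The lower bounds of `G`. -/
theorem ev_G {N C₁ C M M₂ β κ Cz N₀ : ℝ} (hN : 1 ≤ N) (hC₁ : 1 ≤ C₁) (hC : 1 ≤ C) (hM : 1 ≤ M)
    (κ0 : 0 < κ) (κ1 : κ ≤ 1) :
    ∃ N₁ : ℝ, 1 ≤ N₁ ∧ ∀ G, N₁ ≤ G → NG N M₂ β κ C Cz G ∧ Nt N C₁ C M κ G ∧ 60 ≤ G ∧ N₀ ≤ G := by
  have evk : ∀ k : ℝ, 0 < k → ∀ a, ∀ᶠ G : ℝ in atTop, a ≤ k * G := fun k hk a =>
    (tendsto_id.const_mul_atTop hk).eventually_ge_atTop a
  have h1 := evk κ κ0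
  have h2 := evk (κ ^ 2) (by positivity)
  have h3 := evk (κ ^ 2 * κ) (by positivity)
  have ev : ∀ᶠ G : ℝ in atTop, NG N M₂ β κ C Cz G ∧ Nt N C₁ C M κ G ∧ 60 ≤ G ∧ N₀ ≤ G := by
    filter_upwards [h1 M₂, h1 (384 * β * N ^ 2 * C), h2 (16 * c7 C β κ), h1 (9 * (N * C) ^ 2),
      h1 (M₂ * (1152 * Cz * C) ^ 2), eventually_ge_atTop (24 * (2 * (N ^ 2 * C + N * C +
        16 * D1 N C + 5 + c8 C β κ) + 6 * H1 N C)), h3 (1000 * (C ^ 2 * M)),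
      eventually_ge_atTop 60, eventually_ge_atTop N₀] with G g1 g2 g3 g4 g5 g6 g7 g8 g9
    exact ⟨⟨g1, g2, g3, g4, g5, g6⟩, ⟨hN, hC₁, hC, hM, κ0, κ1, by linarith, by linarith⟩, g8, g9⟩
  obtain ⟨N₁, hN₁⟩ := eventually_atTop.1 ev
  exact ⟨max 1 N₁, le_max_left _ _, fun G hG => hN₁ G ((le_max_right _ _).trans hG)⟩

end Vale.Agent.P088.R2.H747.P
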