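import Vale.Agent.P088.R2.H747.P.Zf
import Vale.Agent.P088.R2.H660.G.ZoneP

/-!
# P088, stage 3: the zone of the flat pass in the literal form
-/

open MeasureTheory Set Filter
open scoped ContDiff Topology

noncomputable section

namespace Vale.Agent.P088.R2.H747.P

open Vale.Agent.P088.R2.H961.GW Vale.Agent.P088.R2.H644 Vale.Agent.P088.R2.H960.W
  Vale.Agent.P088.R2.H230.W Vale.Agent.P088.R2.H551.E Vale.Agent.P088.R2.H660.P

/-- **The zone of the flat pass.** -/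
theorem zoneP_lit (E ι : Type*) [NormedAddCommGroup E] [NormedSpace ℝ E] [Fintype ι]
    [DecidableEq ι] [MeasureSpace E] [FiniteDimensional ℝ E] [BorelSpace E]
    [(volume : Measure E).IsAddHaarMeasure] [Nonempty ι] (h3 : 3 ≤ Fintype.card ι) :
    H660.G.ZoneP E ι := by
  intro C₁ hC₁
  obtain ⟨β, εz, CP, β0, εz0, CP0, H⟩ := zoneP (E := E) (ι := ι) h3 hC₁
  refine ⟨β, εz, CP, β0, εz0, CP0, fun κ κ0 κ1 => ?_⟩
  obtain ⟨ρ, ρ0, H⟩ := H κ κ0 κ1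
  refine ⟨ρ, ρ0, fun C C1 => ?_⟩
  obtain ⟨N₁, ε, N₁1, ε0, H⟩ := H C C1
  refine ⟨N₁, ε, N₁1, ε0, ?_⟩
  intro σ τ Ω θ v₁ v₂ W G K χ h e ok ot hρ hk hv₁ hv₂ hW hχ hΩ hG hK hh he hS D
  exact H σ τ univ Ω (tsupport χ) θ v₁ v₂ W G K χ h e ok ot hρ hk hv₁ hv₂ hW hχ hΩ
    (subset_univ _) (isClosed_tsupport χ) (by rwa [univ_inter])
    (fun z _ hz => image_eq_zero_of_notMem_tsupport hz) hG hK hh he
    fun z hz => ⟨(D z hz).2, (D z hz).1⟩

end Vale.Agent.P088.R2.H747.P
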