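import Vale.Agent.P088.R2.H747.P.Cu

/-!
# P088, stage 3: the flat pass, the angle between the inner and the outer zone
-/

open MeasureTheory Set Filter
open scoped ContDiff Topology

noncomputable section

namespace Vale.Agent.P088.R2.H747.P

open Vale.Agent.P088.R2.H961.GW Vale.Agent.P088.R2.H644 Vale.Agent.P088.R2.H960.W
  Vale.Agent.P088.R2.H230.W Vale.Agent.P088.R2.H551.E Vale.Agent.P088.R2.H660.P
open Vale.Agent.P088.R2.H867.EP (an an_sm)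

variable {E ι : Type*} [NormedAddCommGroup E] [NormedSpace ℝ E] [Fintype ι]
  {σ τ ρ : Sl E ι} {Ω : Set E} {θ θ' W G t : E → ℝ} {C₁ C M κ ε m : ℝ} {z : E}

/-- The angle. -/
def ph (σ : Sl E ι) (W G : E → ℝ) (m : ℝ) (z : E) : ℝ := an (tt σ W G m z)

/-- The size of the angle: `δ = KP / M`. -/
def KP (N C₁ : ℝ) : ℝ := 2 * K2 N C₁ + K4 N C₁

theorem KP_pos {N C₁ : ℝ} (hN : 1 ≤ N) (hC : 1 ≤ C₁) : 0 < KP N C₁ := by
  have := K2_ge hN hC
  have := K4_pos hN hC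
  unfold KP
  linarith

theorem ph_sm (ok : σ.Ok Ω θ) (hW : Sm Ω W) (hG : Sm Ω G) (hm : m ≠ 0)
    (h0 : ∀ z ∈ Ω, G z ≠ 0) : Sm Ω (ph σ W G m) :=
  an_sm.comp_contDiffOn (tt_sm ok hW hG hm h0)

/-- The angle at a point: first derivatives. -/
theorem ph_dD [DecidableEq ι] (or : ρ.Ok Ω θ') (ok : σ.Ok Ω θ) (hW : Sm Ω W) (hG : Sm Ω G)
    (h0 : ∀ z ∈ Ω, G z ≠ 0) (hz : z ∈ Ω) (n : Nt (Fintype.card ι) C₁ C M κ (G z))
    (hD : ∀ j, |ρ.D j G z| ≤ C * G z) (hDD : ∀ i j, |ρ.D i (σ.D j W) z| ≤ C₁ * κ * G z) :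
    dD ρ (ph σ W G (M * κ)) z ≤ KP (Fintype.card ι) C₁ / M * (κ * G z) := by
  have h := (cut1 an_wp or ok hW hG h0 hz n hD hDD).1
  have k0 := n.κ0; have G1 := n.G1; have M1 := n.M1
  have M0 : 0 < M := by linarith
  have kg : 0 ≤ κ * G z := by positivity
  have K0 := K4_pos n.N1 n.C₁1
  have h1 : M * dD ρ (ph σ W G (M * κ)) z ≤ M * (KP (Fintype.card ι) C₁ / M * (κ * G z)) := by
    have e : M * (KP (Fintype.card ι) C₁ / M * (κ * G z)) = KP (Fintype.card ι) C₁ * (κ * G z) := by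
      field_simp
    have e2 : 0 ≤ K4 (Fintype.card ι) C₁ * (κ * G z) := by positivity
    have h' : M * dD ρ (ph σ W G (M * κ)) z ≤
      2 * K2 (Fintype.card ι) C₁ * (1 : ℝ) ^ 2 * (κ * G z) := h
    rw [e, KP]
    linarith
  exact le_of_mul_le_mul_left h1 M0

/-- The angle at a point: the operator `Λ`. -/
theorem ph_Λ [DecidableEq ι] [Nonempty ι] (ok : σ.Ok Ω θ) (hW : Sm Ω W)
    (hG : Sm Ω G) (h0 : ∀ z ∈ Ω, G z ≠ 0) (hz : z ∈ Ω)
    (n : Nt (Fintype.card ι) C₁ C M κ (G z)) (S : Sb σ ε z)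
    (hε : 20 * (Fintype.card ι * ε) ≤ 1)
    (hD : ∀ j, |σ.D j G z| ≤ C * G z) (hDD : ∀ i j, |σ.D i (σ.D j W) z| ≤ C₁ * κ * G z)
    (g2 : ∀ i j, |σ.D i (σ.D j G) z| ≤ C * G z)
    (w3 : ∀ i j k, |σ.D i (σ.D j (σ.D k W)) z| ≤ C * G z) :
    |σ.Λ (ph σ W G (M * κ)) z| ≤ KP (Fintype.card ι) C₁ / M * (κ * G z) := by
  have h := cut2 an_wp ok hW hG h0 hz n S hε hD hDD g2 w3
  have k0 := n.κ0; have G1 := n.G1; have M1 := n.M1
  have M0 : 0 < M := by linarith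
  have kg : 0 ≤ κ * G z := by positivity
  have K0 := K2_ge n.N1 n.C₁1
  have h1 : M * |σ.Λ (ph σ W G (M * κ)) z| ≤
      M * (KP (Fintype.card ι) C₁ / M * (κ * G z)) := by
    have e : M * (KP (Fintype.card ι) C₁ / M * (κ * G z)) = KP (Fintype.card ι) C₁ * (κ * G z) := by
      field_simp
    have e2 : 0 ≤ K2 (Fintype.card ι) C₁ * (κ * G z) := by positivity
    have h' : M * |σ.Λ (ph σ W G (M * κ)) z| ≤ K4 (Fintype.card ι) C₁ * (κ * G z) := h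
    rw [e, KP]
    linarith
  exact le_of_mul_le_mul_left h1 M0

theorem ph_z (h : tt σ W G m z ≤ 0) : Real.sin (ph σ W G m z) = 0 :=
  H867.EP.sn_zero h

theorem ph_o (h : 1 ≤ tt σ W G m z) : Real.cos (ph σ W G m z) = 0 :=
  H867.EP.cs_one h

/-- `sin ≠ 0` only where `|W_x|² ≥ m G`. -/
theorem ph_sin (hm : 0 < m) (hG : 0 < G z) (h : Real.sin (ph σ W G m z) ≠ 0) :
    m * G z ≤ dD σ W z := by
  by_contra hc
  push Not at hc
  refine h (ph_z ?_)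
  have h1 := tt_id (σ := σ) (W := W) hm.ne' hG.ne'
  have h2 : m * G z * tt σ W G m z < m * G z * 0 := by linarith
  exact (lt_of_mul_lt_mul_left h2 (by positivity)).le

/-- `cos ≠ 0` only where `|W_x|² ≤ 2 m G`. -/
theorem ph_cos (hm : 0 < m) (hG : 0 < G z) (h : Real.cos (ph σ W G m z) ≠ 0) :
    dD σ W z ≤ 2 * m * G z := by
  by_contra hc
  push Not at hc
  refine h (ph_o ?_)
  have h1 := tt_id (σ := σ) (W := W) hm.ne' hG.ne'
  have h2 : m * G z * 1 < m * G z * tt σ W G m z := by linarith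
  exact (lt_of_mul_lt_mul_left h2 (by positivity)).le

end Vale.Agent.P088.R2.H747.P
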