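import Vale.Agent.P088.R2.H747.P.Ph
import Vale.Agent.P088.R2.H660.G.Add
import Vale.Agent.P088.R2.H660.G.Ang
import Vale.Agent.P088.R2.H660.G.Num

/-!
# P088, stage 3: the flat pass, the payment of the cut at a point
-/

open MeasureTheory Set Filter
open scoped ContDiff Topology

noncomputable section

namespace Vale.Agent.P088.R2.H747.P

open Vale.Agent.P088.R2.H961.GW Vale.Agent.P088.R2.H644 Vale.Agent.P088.R2.H960.W
  Vale.Agent.P088.R2.H230.W Vale.Agent.P088.R2.H551.E Vale.Agent.P088.R2.H660.P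
  Vale.Agent.P088.R2.H660.G
open Vale.Agent.P088.R2.H747.SW (MA coA rh)

variable {E ι : Type*} [NormedAddCommGroup E] [NormedSpace ℝ E] [Fintype ι]

/-- The cost function of the flat pass. -/
def om4 (σ τ : Sl E ι) (χ : E → ℝ) (z : E) : ℝ :=
  dD σ χ z + dD τ χ z + σ.Λ χ z ^ 2 + τ.Λ χ z ^ 2

theorem dD_nonneg (σ : Sl E ι) (χ : E → ℝ) (z : E) : 0 ≤ dD σ χ z :=
  Finset.sum_nonneg fun _ _ => sq_nonneg _

variable {σ τ : Sl E ι} {Ω : Set E} {θ v₁ v₂ W G χ φ : E → ℝ} {z : E}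
  {M κ β η Cz δ ρ CP ε m : ℝ}

omit [NormedAddCommGroup E] [NormedSpace ℝ E] in
theorem rh_bd {m : E → ℝ} (h : 0 ≤ m z) : rh m z ≤ 1 := by
  unfold rh
  rw [div_le_one (by linarith)]
  linarith

omit [NormedAddCommGroup E] [NormedSpace ℝ E] in
theorem rh_nn {m : E → ℝ} (h : 0 ≤ m z) : 0 ≤ rh m z := by
  unfold rh
  positivity

section slot

variable [DecidableEq ι]

theorem Γ_self (S : Sb σ ε z) (hε : 20 * (Fintype.card ι * ε) ≤ 1) (f : E → ℝ) :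
    |σ.Γ f f z| ≤ 21 / 20 * dD σ f z := by
  have := S.Γ_le hε f f
  rwa [← sq, ← dD_nn] at this

theorem Γ_mix (S : Sb σ ε z) (hε : 20 * (Fintype.card ι * ε) ≤ 1) (f g : E → ℝ) :
    σ.Γ f g z ^ 2 ≤ 21 / 20 * (21 / 20) * (dD σ f z * dD σ g z) := by
  have h := pow_le_pow_left₀ (abs_nonneg _) (S.Γ_le hε f g) 2
  rw [sq_abs] at h
  refine h.trans (le_of_eq ?_)
  rw [dD_nn, dD_nn]
  ring

/-- **The payment at a point, coefficient by coefficient.** -/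
theorem pay_le (g : GN M κ β (1 / 8) η Cz δ ρ CP) (ok : σ.Ok Ω θ) (ot : τ.Ok Ω θ)
    (hχ : Sm Ω χ) (hφ : Sm Ω φ) (hz : z ∈ Ω) (sx : Sb σ ε z) (sy : Sb τ ε z)
    (hε : 20 * (Fintype.card ι * ε) ≤ 1) (hG : 60 ≤ G z) (lo : G z ≤ nn (gr τ W z))
    (rx : dD σ φ z ≤ δ * (κ * G z)) (ry : dD τ φ z ≤ δ * (κ * G z))
    (hl : |σ.Λ φ z| ≤ δ * (κ * G z))
    (hs : Real.sin (φ z) ≠ 0 → M * κ * G z ≤ dD σ W z)
    (hc : Real.cos (φ z) ≠ 0 → dD σ W z ≤ 2 * M * κ * G z) :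
    Q8.Le ((MP σ τ W G ρ).sm (fun z => χ z ^ 2) + (cIn σ τ W G (ci χ φ) κ Cz +
      coA σ τ W (fun z => 1 / 8 * κ * G z) (co χ φ) η))
      (coP σ τ W G (om4 σ τ χ) CP + ((MIn τ W G κ β).sm (fun z => ci χ φ z ^ 2) +
        (MA σ τ W (fun z => 1 / 8 * κ * G z) (1 / 2)).sm (fun z => co χ φ z ^ 2))) z := by
  have hκ := g.κ0; have hη := g.η0
  have G1 : 1 ≤ G z := by linarith
  have G0 : 0 < G z := by linarith
  obtain ⟨X, hX⟩ : ∃ X, X = χ z ^ 2 := ⟨_, rfl⟩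
  have X0 : 0 ≤ X := by rw [hX]; exact sq_nonneg _
  have m0 : 0 ≤ (fun z => 1 / 8 * κ * G z) z := by
    show 0 ≤ 1 / 8 * κ * G z
    positivity
  have r1 := rh_bd m0
  have cs : Real.cos (φ z) ^ 2 + Real.sin (φ z) ^ 2 = 1 := Real.cos_sq_add_sin_sq _
  have dx0 := dD_nonneg σ χ z
  have dy0 := dD_nonneg τ χ z
  have l0 := sq_nonneg (σ.Λ χ z)
  have l1 := sq_nonneg (τ.Λ χ z)
  have D1 := dD_ci σ ok.op hχ hφ hz
  have D2 := dD_co σ ok.op hχ hφ hz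
  have E1 := dD_ci τ ok.op hχ hφ hz
  have E2 := dD_co τ ok.op hχ hφ hz
  have L1 := Λ_ci_sq ok hχ hφ hz
  have D20 := dD_nonneg σ (co χ φ) z
  have E20 := dD_nonneg τ (co χ φ) z
  have CP0 : 0 ≤ CP := by
    have h2 := g.cP
    have h3 : 0 ≤ 7 / η := by positivity
    have h4 : 0 ≤ 43800 * Cz ^ 2 := by positivity
    linarith
  have F1 := sx.F_up hε W
  have F2 := sx.F_lo hε W
  have F4 := sy.F_lo hε W
  have ox : dD σ χ z ≤ om4 σ τ χ z := by unfold om4; linarith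
  have oy : dD τ χ z ≤ om4 σ τ χ z := by unfold om4; linarith
  have ol : σ.Λ χ z ^ 2 ≤ om4 σ τ χ z := by unfold om4; linarith
  have Γx := (le_abs_self _).trans (Γ_self sx hε (co χ φ))
  have Γy := (le_abs_self _).trans (Γ_self sy hε (co χ φ))
  have dw : dD σ W z = nn (gr σ W z) ^ 2 := dD_nn σ W z
  have dwy : dD τ W z = nn (gr τ W z) ^ 2 := dD_nn τ W z
  rw [dw] at hs hc
  have e1 : ci χ φ z ^ 2 = X * Real.cos (φ z) ^ 2 := by rw [hX, ci]; ring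
  have e2 : co χ φ z ^ 2 = X * Real.sin (φ z) ^ 2 := by rw [hX, co]; ring
  have F0 : 0 ≤ τ.F W z := by
    have := sq_nonneg (nn (gr τ W z))
    linarith
  rw [← hX] at D1 D2 E1 E2 L1
  have k1 := ln1 g (rh := rh (fun z => 1 / 8 * κ * G z) z) G1 X0 cs dx0 rx D2 D20 r1
  have k2 := ln2 g (rh := rh (fun z => 1 / 8 * κ * G z) z) G1 X0 cs dy0 ry E1 E2 E20 r1
  have k3 := ln3 g (rh := rh (fun z => 1 / 8 * κ * G z) z) (l := σ.Λ χ z) (lam := σ.Λ φ z)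
    (gg := σ.Γ φ φ z) (gx := σ.Γ χ φ z) G1 X0 cs dx0 ox ol rx hl F1 F2 hs hc
    (Γ_self sx hε φ) (Γ_mix sx hε χ φ) D1 D2 D20 Γx L1 r1
  have k4 := ln4 g (rh := rh (fun z => 1 / 8 * κ * G z) z) hG X0 cs dy0 ry F4 lo E1 E2 E20 Γy r1
  have c1 := mul_le_mul_of_nonneg_left ox CP0
  have c2 := mul_le_mul_of_nonneg_left oy CP0
  have c3 := mul_le_mul_of_nonneg_right c2 F0
  rw [← dw] at k3
  rw [← dwy] at k4
  have q1 : (∑ i, σ.D i (co χ φ) z ^ 2) = dD σ (co χ φ) z := rfl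
  have q2 : (∑ i, τ.D i (co χ φ) z ^ 2) = dD τ (co χ φ) z := rfl
  have q3 : (∑ i, σ.D i W z ^ 2) = dD σ W z := rfl
  have q4 : (∑ i, τ.D i W z ^ 2) = dD τ W z := rfl
  have k0 : X * (1 / 4) ≤ X * Real.cos (φ z) ^ 2 * (1 / 2) + X * Real.sin (φ z) ^ 2 * (1 / 2) := by
    have : X * Real.cos (φ z) ^ 2 * (1 / 2) + X * Real.sin (φ z) ^ 2 * (1 / 2) =
      X * (Real.cos (φ z) ^ 2 + Real.sin (φ z) ^ 2) * (1 / 2) := by ring
    rw [this, cs]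
    linarith only [X0]
  clear hs hc rx ry hl D1 D2 E1 E2 L1 r1 m0 sx sy
  refine ⟨?_, ?_, ?_, ?_, ?_, ?_, ?_, ?_⟩ <;>
    simp only [Q8.add_def, Q8.sm, Pi.add_apply, Pi.mul_apply, MP, cIn, coA, coP, MIn, MA, e1, e2,
      ← hX, q1, q2, q3, q4]
  · linarith only [k0]
  · linarith only [k1, c1]
  · linarith only [k2, c2]
  · simp
  · linarith only [k3]
  · linarith only [k4, c3]
  · simp
  · simp

end slot

end Vale.Agent.P088.R2.H747.P
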