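import Vale.Agent.P088.R2.H747.P.Dt

/-!
# P088, stage 3: the flat pass, the cut variable `t = |W_x|² / (M κ G) - 1`
-/

open MeasureTheory Set Filter
open scoped ContDiff Topology

noncomputable section

namespace Vale.Agent.P088.R2.H747.P

open Vale.Agent.P088.R2.H961.GW Vale.Agent.P088.R2.H644 Vale.Agent.P088.R2.H960.W
  Vale.Agent.P088.R2.H230.W Vale.Agent.P088.R2.H551.E Vale.Agent.P088.R2.H660.P

variable {E ι : Type*} [NormedAddCommGroup E] [NormedSpace ℝ E] [Fintype ι]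

/-- The cut variable. -/
def tt (σ : Sl E ι) (W G : E → ℝ) (m : ℝ) (z : E) : ℝ := dD σ W z / (m * G z) - 1

variable {σ τ ρ : Sl E ι} {Ω : Set E} {θ θ' W G : E → ℝ} {m : ℝ} {z : E}

theorem tt_sm (ok : σ.Ok Ω θ) (hW : Sm Ω W) (hG : Sm Ω G) (hm : m ≠ 0)
    (h0 : ∀ z ∈ Ω, G z ≠ 0) : Sm Ω (tt σ W G m) :=
  ((sdD ok hW).div (contDiffOn_const.mul hG) fun z hz => mul_ne_zero hm (h0 z hz)).sub
    contDiffOn_const

theorem tt_id (hm : m ≠ 0) (h0 : G z ≠ 0) : dD σ W z = m * ((1 + tt σ W G m z) * G z) := by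
  unfold tt
  field_simp
  ring

/-- The derivative of `|W_x|²`. -/
theorem D_dD (ok : σ.Ok Ω θ) (hW : Sm Ω W) (i : ι) (hz : z ∈ Ω) :
    ρ.D i (dD σ W) z = ∑ j, 2 * σ.D j W z * ρ.D i (σ.D j W) z := by
  have h1 : ρ.D i (dD σ W) z = ρ.D i (fun z => ∑ j, σ.D j W z ^ 2) z := rfl
  rw [h1, D_sum ρ ok.op _ (fun j _ => (ok.sD hW j).pow 2) i hz]
  exact Finset.sum_congr rfl fun j _ => D_sq ρ ok.op (ok.sD hW j) i hz

theorem DD_dD (ok : σ.Ok Ω θ) (hW : Sm Ω W) (i j : ι) (hz : z ∈ Ω) :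
    σ.D i (σ.D j (dD σ W)) z = ∑ k, 2 * (σ.D i (σ.D k W) z * σ.D j (σ.D k W) z +
      σ.D k W z * σ.D i (σ.D j (σ.D k W)) z) := by
  have hU := ok.op
  rw [D_congr σ hU (fun w hw => D_dD (ρ := σ) ok hW j hw) i hz,
    D_sum σ hU _ (fun k _ => (contDiffOn_const.mul (ok.sD hW k)).mul (ok.sD (ok.sD hW k) j)) i hz]
  refine Finset.sum_congr rfl fun k _ => ?_
  rw [D_mul σ hU (contDiffOn_const.mul (ok.sD hW k)) (ok.sD (ok.sD hW k) j) i hz,
    D_cmul σ hU 2 (ok.sD hW k) i hz]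
  ring

/-- The first derivative of `t`. -/
theorem D_tt (ok : σ.Ok Ω θ) (hW : Sm Ω W) (hG : Sm Ω G) (hm : m ≠ 0)
    (h0 : ∀ z ∈ Ω, G z ≠ 0) (i : ι) (hz : z ∈ Ω) :
    ρ.D i (dD σ W) z = m * (ρ.D i (tt σ W G m) z * G z +
      (1 + tt σ W G m z) * ρ.D i G z) := by
  have hU := ok.op
  have st := tt_sm ok hW hG hm h0
  have s1 : Sm Ω fun z => 1 + tt σ W G m z := contDiffOn_const.add st
  rw [D_congr ρ hU (fun w hw => tt_id (σ := σ) (W := W) hm (h0 w hw)) i hz,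
    D_cmul ρ hU m (s1.mul hG) i hz, D_mul ρ hU s1 hG i hz,
    D_add ρ hU contDiffOn_const st i hz, D_const]
  ring

/-- The second derivative of `t`. -/
theorem DD_tt (ok : σ.Ok Ω θ) (hW : Sm Ω W) (hG : Sm Ω G) (hm : m ≠ 0)
    (h0 : ∀ z ∈ Ω, G z ≠ 0) (i j : ι) (hz : z ∈ Ω) :
    σ.D i (σ.D j (dD σ W)) z = m * (σ.D i (σ.D j (tt σ W G m)) z * G z +
      σ.D j (tt σ W G m) z * σ.D i G z + σ.D i (tt σ W G m) z * σ.D j G z +
      (1 + tt σ W G m z) * σ.D i (σ.D j G) z) := by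
  have hU := ok.op
  have st := tt_sm ok hW hG hm h0
  have s1 : Sm Ω fun z => 1 + tt σ W G m z := contDiffOn_const.add st
  have s2 : Sm Ω fun z => σ.D j (tt σ W G m) z * G z := (ok.sD st j).mul hG
  have s3 : Sm Ω fun z => (1 + tt σ W G m z) * σ.D j G z := s1.mul (ok.sD hG j)
  rw [D_congr σ hU (fun w hw => D_tt (ρ := σ) ok hW hG hm h0 j hw) i hz,
    D_cmul σ hU m (s2.add s3) i hz, D_add σ hU s2 s3 i hz,
    D_mul σ hU (ok.sD st j) hG i hz, D_mul σ hU s1 (ok.sD hG j) i hz,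
    D_add σ hU contDiffOn_const st i hz, D_const]
  ring

/-! ## Sizes -/

theorem dD_eq_nn (σ : Sl E ι) (W : E → ℝ) (z : E) : dD σ W z = nn (gr σ W z) ^ 2 := dD_nn σ W z

/-- `∑ |a_j| |b_j| ≤ N w B`. -/
theorem sum_ab {a b : ι → ℝ} {w B : ℝ} (ha : ∀ j, |a j| ≤ w) (hb : ∀ j, |b j| ≤ B)
    (w0 : 0 ≤ w) : |∑ j, 2 * a j * b j| ≤ Fintype.card ι * (2 * w * B) := by
  calc |∑ j, 2 * a j * b j| ≤ ∑ j, |2 * a j * b j| := Finset.abs_sum_le_sum_abs _ _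
    _ ≤ ∑ _j : ι, 2 * w * B := Finset.sum_le_sum fun j _ => by
        rw [abs_mul, abs_mul, abs_two]
        exact mul_le_mul (mul_le_mul_of_nonneg_left (ha j) (by norm_num)) (hb j)
          (abs_nonneg _) (by positivity)
    _ = _ := by
        rw [Finset.sum_const, Finset.card_univ, nsmul_eq_mul]

theorem sum_abcd {a b c d : ι → ℝ} {w B D : ℝ} (ha : ∀ j, |a j| ≤ w) (hb : ∀ j, |b j| ≤ B)
    (hc : ∀ j, |c j| ≤ B) (hd : ∀ j, |d j| ≤ D) (w0 : 0 ≤ w) (B0 : 0 ≤ B) :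
    |∑ j, 2 * (b j * c j + a j * d j)| ≤ Fintype.card ι * (2 * (B * B + w * D)) := by
  calc |∑ j, 2 * (b j * c j + a j * d j)| ≤ ∑ j, |2 * (b j * c j + a j * d j)| :=
        Finset.abs_sum_le_sum_abs _ _
    _ ≤ ∑ _j : ι, 2 * (B * B + w * D) := Finset.sum_le_sum fun j _ => by
        rw [abs_mul, abs_two]
        refine mul_le_mul_of_nonneg_left ((abs_add_le _ _).trans (add_le_add ?_ ?_))
          (by norm_num)
        · rw [abs_mul]
          exact mul_le_mul (hb j) (hc j) (abs_nonneg _) B0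
        · rw [abs_mul]
          exact mul_le_mul (ha j) (hd j) (abs_nonneg _) w0
    _ = _ := by
        rw [Finset.sum_const, Finset.card_univ, nsmul_eq_mul]

/-- The numbers of the cut. -/
structure Nt (N C₁ C M κ G : ℝ) : Prop where
  N1 : 1 ≤ N
  C₁1 : 1 ≤ C₁
  C1 : 1 ≤ C
  M1 : 1 ≤ M
  κ0 : 0 < κ
  κ1 : κ ≤ 1
  G1 : 1 ≤ G
  n : 1000 * (C ^ 2 * M) ≤ κ ^ 2 * (κ * G)

variable {N C₁ C M κ t w g : ℝ}

/-- `C w ≤ κ g / 22` on the layer. -/
theorem Nt.cw (n : Nt N C₁ C M κ g) (hw : w ^ 2 ≤ 2 * M * (κ * g)) :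
    22 * (C * w) ≤ κ * (κ * g) := by
  have k0 := n.κ0; have G1 := n.G1; have C1 := n.C1
  have kg : 0 < κ * g := by positivity
  have h1 : (22 * (C * w)) ^ 2 ≤ (κ * (κ * g)) ^ 2 := by
    have e1 : (22 * (C * w)) ^ 2 = 484 * (C ^ 2 * w ^ 2) := by ring
    have e2 : C ^ 2 * w ^ 2 ≤ C ^ 2 * (2 * M * (κ * g)) :=
      mul_le_mul_of_nonneg_left hw (by positivity)
    have e3 := mul_le_mul_of_nonneg_right n.n kg.le
    have e4 : (κ * (κ * g)) ^ 2 = κ ^ 2 * (κ * g) * (κ * g) := by ring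
    rw [e1, e4]
    have e5 : C ^ 2 * (2 * M * (κ * g)) = 2 * (C ^ 2 * M * (κ * g)) := by ring
    have e6 : 1000 * (C ^ 2 * M) * (κ * g) = 1000 * (C ^ 2 * M * (κ * g)) := by ring
    have e7 : 0 ≤ C ^ 2 * M * (κ * g) := by have := n.M1; positivity
    linarith
  have h2 : 0 ≤ κ * (κ * g) := by positivity
  exact abs_le_of_sq_le_sq' h1 h2 |>.2

/-- `2 C M ≤ N C₁ w` on the layer. -/
theorem Nt.cm (n : Nt N C₁ C M κ g) (w0 : 0 ≤ w) (hw : M * (κ * g) ≤ w ^ 2) :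
    2 * C * M ≤ w ∧ 2 * C * M ≤ N * C₁ * w := by
  have k0 := n.κ0; have G1 := n.G1; have C1 := n.C1; have M1 := n.M1
  have kg : 0 < κ * g := by positivity
  have k2 : κ ^ 2 * (κ * g) ≤ κ * g := by
    have : κ ^ 2 ≤ 1 := pow_le_one₀ k0.le n.κ1
    exact mul_le_of_le_one_left kg.le this
  have h1 : (2 * C * M) ^ 2 ≤ w ^ 2 := by
    have e1 : (2 * C * M) ^ 2 = 4 * (C ^ 2 * M) * M := by ring
    have e2 : 4 * (C ^ 2 * M) ≤ κ * g := by
      have := n.n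
      have e7 : 0 ≤ C ^ 2 * M := by positivity
      linarith
    have e3 := mul_le_mul_of_nonneg_right e2 (by linarith : 0 ≤ M)
    rw [e1]
    linarith
  have h2 := abs_le_of_sq_le_sq' h1 w0 |>.2
  refine ⟨h2, h2.trans ?_⟩
  have : 1 ≤ N * C₁ := one_le_mul_of_one_le_of_one_le n.N1 n.C₁1
  exact le_mul_of_one_le_left w0 this

section bd

variable [DecidableEq ι] {v₁ v₂ K : E → ℝ} {h e : ι → E → ℝ} {β ε εz : ℝ}

/-- The first derivatives of `t` on the layer. -/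
theorem tt1 (ok : σ.Ok Ω θ) (hW : Sm Ω W) (hG : Sm Ω G) (h0 : ∀ z ∈ Ω, G z ≠ 0) (hz : z ∈ Ω)
    (n : Nt (Fintype.card ι) C₁ C M κ (G z))
    (hD : ∀ j, |ρ.D j G z| ≤ C * G z) (hDD : ∀ i j, |ρ.D i (σ.D j W) z| ≤ C₁ * κ * G z)
    (ht0 : 0 ≤ tt σ W G (M * κ) z) (ht1 : tt σ W G (M * κ) z ≤ 1) (i : ι) :
    M * |ρ.D i (tt σ W G (M * κ)) z| ≤ 3 * Fintype.card ι * C₁ * nn (gr σ W z) := by
  have k0 := n.κ0; have G1 := n.G1; have C1 := n.C1; have M1 := n.M1; have C₁1 := n.C₁1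
  have N1 := n.N1
  have hm : M * κ ≠ 0 := by positivity
  have G0 : 0 < G z := by linarith
  obtain ⟨w, hw⟩ : ∃ w, w = nn (gr σ W z) := ⟨_, rfl⟩
  have w0 : 0 ≤ w := by rw [hw]; exact nn_nonneg _
  have id0 : w ^ 2 = M * κ * ((1 + tt σ W G (M * κ) z) * G z) := by
    rw [hw, ← dD_nn]; exact tt_id hm (h0 z hz)
  have lo : M * (κ * G z) ≤ w ^ 2 := by
    rw [id0]
    have : 0 ≤ M * κ * G z * tt σ W G (M * κ) z := by positivity
    linarith
  obtain ⟨-, cm⟩ := n.cm w0 lo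
  have id1 := D_tt (ρ := ρ) (m := M * κ) ok hW hG hm h0 i hz
  have b1 : |ρ.D i (dD σ W) z| ≤ Fintype.card ι * (2 * w * (C₁ * κ * G z)) := by
    rw [D_dD ok hW i hz]
    exact sum_ab (fun j => by rw [hw]; exact abs_le_nn (gr σ W z) j) (fun j => hDD i j) w0
  obtain ⟨D, hDd⟩ : ∃ D, D = ρ.D i (tt σ W G (M * κ)) z := ⟨_, rfl⟩
  rw [← hDd] at id1 ⊢
  rw [← hw]
  obtain ⟨t, htt⟩ : ∃ t, t = tt σ W G (M * κ) z := ⟨_, rfl⟩
  rw [← htt] at ht0 ht1 id1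
  have e1 : M * κ * G z * D = ρ.D i (dD σ W) z - M * κ * ((1 + t) * ρ.D i G z) := by
    rw [id1]; ring
  have b2 : |M * κ * ((1 + t) * ρ.D i G z)| ≤ M * κ * (2 * (C * G z)) := by
    rw [abs_mul, abs_of_pos (by positivity : 0 < M * κ), abs_mul,
      abs_of_nonneg (by linarith : 0 ≤ 1 + t)]
    exact mul_le_mul_of_nonneg_left (mul_le_mul (by linarith) (hD i) (abs_nonneg _)
      (by norm_num)) (by positivity)
  have b3 : M * κ * G z * |D| ≤ Fintype.card ι * (2 * w * (C₁ * κ * G z)) +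
      M * κ * (2 * (C * G z)) := by
    have h1 : |M * κ * G z * D| = M * κ * G z * |D| := by
      rw [abs_mul, abs_of_pos (by positivity)]
    rw [← h1, e1]
    exact (abs_sub _ _).trans (add_le_add b1 b2)
  have b4 : κ * G z * (M * |D|) ≤ κ * G z * (3 * Fintype.card ι * C₁ * w) := by
    have h2 := mul_le_mul_of_nonneg_left cm (by positivity : 0 ≤ κ * G z)
    linarith
  exact le_of_mul_le_mul_left b4 (by positivity)

/-- The second derivatives of `t` on the layer. -/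
theorem tt2 (ok : σ.Ok Ω θ) (hW : Sm Ω W) (hG : Sm Ω G) (h0 : ∀ z ∈ Ω, G z ≠ 0) (hz : z ∈ Ω)
    (n : Nt (Fintype.card ι) C₁ C M κ (G z))
    (hD : ∀ j, |σ.D j G z| ≤ C * G z) (hDD : ∀ i j, |σ.D i (σ.D j W) z| ≤ C₁ * κ * G z)
    (g2 : ∀ i j, |σ.D i (σ.D j G) z| ≤ C * G z)
    (w3 : ∀ i j k, |σ.D i (σ.D j (σ.D k W)) z| ≤ C * G z)
    (ht0 : 0 ≤ tt σ W G (M * κ) z) (ht1 : tt σ W G (M * κ) z ≤ 1) (i j : ι) :
    M * |σ.D i (σ.D j (tt σ W G (M * κ))) z| ≤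
      3 * Fintype.card ι * C₁ ^ 2 * (κ * G z) := by
  have k0 := n.κ0; have G1 := n.G1; have C1 := n.C1; have M1 := n.M1; have C₁1 := n.C₁1
  have N1 := n.N1; have k1 := n.κ1
  have hm : M * κ ≠ 0 := by positivity
  have G0 : 0 < G z := by linarith
  have d1 := tt1 (ρ := σ) ok hW hG h0 hz n hD hDD ht0 ht1
  obtain ⟨w, hw⟩ : ∃ w, w = nn (gr σ W z) := ⟨_, rfl⟩
  have w0 : 0 ≤ w := by rw [hw]; exact nn_nonneg _
  have id0 : w ^ 2 = M * κ * ((1 + tt σ W G (M * κ) z) * G z) := by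
    rw [hw, ← dD_nn]; exact tt_id hm (h0 z hz)
  have up : w ^ 2 ≤ 2 * M * (κ * G z) := by
    rw [id0]
    have : 0 ≤ M * κ * G z * (1 - tt σ W G (M * κ) z) := by
      have : 0 ≤ 1 - tt σ W G (M * κ) z := by linarith
      positivity
    linarith
  have cw := n.cw up
  have id2 := DD_tt (m := M * κ) ok hW hG hm h0 i j hz
  have b1 : |σ.D i (σ.D j (dD σ W)) z| ≤ Fintype.card ι *
      (2 * ((C₁ * κ * G z) * (C₁ * κ * G z) + w * (C * G z))) := by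
    rw [DD_dD ok hW i j hz]
    exact sum_abcd (fun k => by rw [hw]; exact abs_le_nn (gr σ W z) k) (fun k => hDD i k)
      (fun k => hDD j k) (fun k => w3 i j k) w0 (by positivity)
  rw [← hw] at d1
  obtain ⟨t, htt⟩ : ∃ t, t = tt σ W G (M * κ) z := ⟨_, rfl⟩
  rw [← htt] at ht0 ht1 id2
  obtain ⟨D, hDd⟩ : ∃ D, D = σ.D i (σ.D j (tt σ W G (M * κ))) z := ⟨_, rfl⟩
  have di := d1 i
  have dj := d1 j
  obtain ⟨a, ha⟩ : ∃ a, a = σ.D i (tt σ W G (M * κ)) z := ⟨_, rfl⟩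
  obtain ⟨b, hb⟩ : ∃ b, b = σ.D j (tt σ W G (M * κ)) z := ⟨_, rfl⟩
  rw [← ha] at di id2
  rw [← hb] at dj id2
  rw [← hDd] at id2 ⊢
  obtain ⟨X, hX⟩ : ∃ X, X = σ.D i (σ.D j (dD σ W)) z := ⟨_, rfl⟩
  rw [← hX] at b1 id2
  set N : ℝ := (Fintype.card ι : ℝ) with hN
  clear_value N
  have N0 : 0 ≤ N := by linarith
  have e1 : M * κ * G z * D = X - M * κ * (b * σ.D i G z) - M * κ * (a * σ.D j G z) -
      M * κ * ((1 + t) * σ.D i (σ.D j G) z) := by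
    rw [id2]; ring
  have b2 : ∀ x : ℝ, ∀ k, M * |x| ≤ 3 * N * C₁ * w →
      |M * κ * (x * σ.D k G z)| ≤ κ * (3 * N * C₁ * w * (C * G z)) := by
    intro x k hx
    rw [abs_mul, abs_of_pos (by positivity : 0 < M * κ), abs_mul]
    have := mul_le_mul hx (hD k) (abs_nonneg _) (by positivity)
    calc M * κ * (|x| * |σ.D k G z|) = κ * (M * |x| * |σ.D k G z|) := by ring
      _ ≤ _ := mul_le_mul_of_nonneg_left this k0.le
  have b3 : |M * κ * ((1 + t) * σ.D i (σ.D j G) z)| ≤ M * κ * (2 * (C * G z)) := by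
    rw [abs_mul, abs_of_pos (by positivity : 0 < M * κ), abs_mul,
      abs_of_nonneg (by linarith : 0 ≤ 1 + t)]
    exact mul_le_mul_of_nonneg_left (mul_le_mul (by linarith) (g2 i j) (abs_nonneg _)
      (by norm_num)) (by positivity)
  have b4 : M * κ * G z * |D| ≤ N * (2 * ((C₁ * κ * G z) * (C₁ * κ * G z) + w * (C * G z))) +
      κ * (3 * N * C₁ * w * (C * G z)) + κ * (3 * N * C₁ * w * (C * G z)) +
      M * κ * (2 * (C * G z)) := by
    have h1 : |M * κ * G z * D| = M * κ * G z * |D| := by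
      rw [abs_mul, abs_of_pos (by positivity)]
    rw [← h1, e1]
    refine (abs_sub _ _).trans (add_le_add ((abs_sub _ _).trans (add_le_add
      ((abs_sub _ _).trans (add_le_add b1 (b2 b i dj))) (b2 a j di))) b3)
  -- divide by `G`
  have b5 : G z * (κ * (M * |D|)) ≤ G z * (N * (2 * (C₁ ^ 2 * κ * (κ * G z) + C * w)) +
      κ * (6 * N * C₁ * (C * w)) + κ * (2 * (C * M))) := by
    have e2 : M * κ * G z * |D| = G z * (κ * (M * |D|)) := by ring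
    rw [← e2]
    refine b4.trans (le_of_eq ?_)
    ring
  have b6 := le_of_mul_le_mul_left b5 G0
  have kg : 0 < κ * G z := by positivity
  have cm : 1000 * (C * M) ≤ κ * G z := by
    have h1 := n.n
    have h2 : C * M ≤ C ^ 2 * M := by
      have : C ≤ C ^ 2 := by nlinarith
      exact mul_le_mul_of_nonneg_right this (by linarith)
    have h3 : κ ^ 2 * (κ * G z) ≤ κ * G z :=
      mul_le_of_le_one_left kg.le (pow_le_one₀ k0.le k1)
    linarith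
  have c2 : C₁ ≤ C₁ ^ 2 := by nlinarith
  have NC : 1 ≤ N * C₁ ^ 2 := one_le_mul_of_one_le_of_one_le N1 (one_le_pow₀ C₁1)
  have f1 : N * (2 * (C * w)) ≤ N * C₁ ^ 2 * (1 / 11 * (κ * (κ * G z))) := by
    have h1 : N * (2 * (C * w)) ≤ N * (1 / 11 * (κ * (κ * G z))) :=
      mul_le_mul_of_nonneg_left (by linarith) (by linarith)
    have h2 : N * (1 / 11 * (κ * (κ * G z))) ≤ N * C₁ ^ 2 * (1 / 11 * (κ * (κ * G z))) :=
      mul_le_mul_of_nonneg_right (le_mul_of_one_le_right (by linarith) (one_le_pow₀ C₁1))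
        (by positivity)
    linarith
  have f2 : κ * (6 * N * C₁ * (C * w)) ≤ κ * (N * C₁ ^ 2 * (3 / 11 * (κ * G z))) := by
    refine mul_le_mul_of_nonneg_left ?_ k0.le
    have h1 : 6 * N * C₁ * (C * w) ≤ 6 * N * C₁ * (1 / 22 * (κ * G z)) := by
      refine mul_le_mul_of_nonneg_left ?_ (by positivity)
      have : κ * (κ * G z) ≤ κ * G z := mul_le_of_le_one_left kg.le k1
      linarith
    have h2 : N * C₁ * (3 / 11 * (κ * G z)) ≤ N * C₁ ^ 2 * (3 / 11 * (κ * G z)) :=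
      mul_le_mul_of_nonneg_right (mul_le_mul_of_nonneg_left c2 (by linarith)) (by positivity)
    linarith
  have f3 : κ * (2 * (C * M)) ≤ κ * (N * C₁ ^ 2 * (1 / 500 * (κ * G z))) := by
    refine mul_le_mul_of_nonneg_left ?_ k0.le
    have h2 : 1 * (1 / 500 * (κ * G z)) ≤ N * C₁ ^ 2 * (1 / 500 * (κ * G z)) :=
      mul_le_mul_of_nonneg_right NC (by positivity)
    linarith
  have f4 : κ * (M * |D|) ≤ κ * (3 * N * C₁ ^ 2 * (κ * G z)) := by
    have h0 : 0 ≤ κ * (N * C₁ ^ 2 * (κ * G z)) := by positivity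
    linarith
  exact le_of_mul_le_mul_left f4 k0

end bd

end Vale.Agent.P088.R2.H747.P
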