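import Vale.Agent.P088.R2.H747.P.Zp
import Vale.Agent.P088.R2.H747.P.Gn

/-!
# P088, stage 3: the flat pass, the abstract zone, final theorem
-/

open MeasureTheory Set Filter
open scoped ContDiff Topology

noncomputable section

namespace Vale.Agent.P088.R2.H747.P

open Vale.Agent.P088.R2.H961.GW Vale.Agent.P088.R2.H644 Vale.Agent.P088.R2.H960.W
  Vale.Agent.P088.R2.H230.W Vale.Agent.P088.R2.H551.E Vale.Agent.P088.R2.H660.P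
  Vale.Agent.P088.R2.H660.G
open Vale.Agent.P088.R2.H747.SW (MA coA rh sm_cut Dz MA_ct coA_ct)

variable {E ι : Type*} [NormedAddCommGroup E] [NormedSpace ℝ E] [Fintype ι] [DecidableEq ι]
variable [MeasureSpace E] [FiniteDimensional ℝ E] [BorelSpace E]
  [(volume : Measure E).IsAddHaarMeasure]

/-- **The flat pass, the abstract zone.** -/
theorem zoneP [Nonempty ι] (h3 : 3 ≤ Fintype.card ι) {C₁ : ℝ} (hC₁ : 1 ≤ C₁) :
    ∃ β εz CP : ℝ, 0 < β ∧ 0 < εz ∧ 0 < CP ∧ ∀ κ : ℝ, 0 < κ → κ ≤ 1 → ∃ ρ₁ : ℝ, 0 < ρ₁ ∧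
    ∀ C : ℝ, 1 ≤ C → ∃ N₁ ε : ℝ, 1 ≤ N₁ ∧ 0 < ε ∧
    ∀ (σ τ : Sl E ι) (U Ω S : Set E) (θ v₁ v₂ W G K χ : E → ℝ) (h e : ι → E → ℝ),
      σ.Ok U θ → τ.Ok U θ → (∀ z, σ.ρ z = 1) → (∀ i z, σ.k i z = 0) → Sm U v₁ → Sm U v₂ →
      Sm U W → Sm U χ → IsOpen Ω → Ω ⊆ U → IsClosed S → U ∩ S ⊆ Ω →
      (∀ z ∈ U, z ∉ S → χ z = 0) → Sm Ω G → Sm Ω K → (∀ i, Sm Ω (h i)) → (∀ i, Sm Ω (e i)) →
      (∀ z ∈ Ω, Dt σ τ v₁ v₂ W G K h e κ C₁ C β ε εz z ∧ N₁ ≤ G z) →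
      Zone σ τ U θ v₁ v₂ W χ ((MP σ τ W G ρ₁).sm fun z => χ z ^ 2)
        (coP σ τ W G (om4 σ τ χ) CP) := by
  obtain ⟨εz, Cz, εz0, Cz0, pz⟩ := H285.W.rowPZP E ι
  have N3 : (3:ℝ) ≤ Fintype.card ι := by exact_mod_cast h3
  obtain ⟨η, η0, η1, gn⟩ := gn_ex N3 hC₁ Cz0
  obtain ⟨M₀, M₀1, out⟩ := H858.P.rowPOutV (E := E) (ι := ι) C₁ (1 / 8) (1 / 3) η (1 / 2) hC₁
    (by norm_num) (by norm_num) (by norm_num) (by norm_num) η0 η1 (by linarith)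
  obtain ⟨M, β, CP, hM, β0, β1, CP0, gn⟩ := gn M₀ M₀1
  refine ⟨β, εz, CP, β0, εz0, CP0, fun κ κ0 κ1 => ?_⟩
  obtain ⟨ρ, ρ0, g⟩ := gn κ κ0 κ1
  refine ⟨ρ, ρ0, fun C C1 => ?_⟩
  obtain ⟨N₀, ε₀, -, ε₀0, out⟩ := out (M / 2) κ C (by linarith) κ0 κ1 C1
  have M1 : 1 ≤ M := g.M1
  obtain ⟨N₁, N₁1, hN₁⟩ := ev_G (N := Fintype.card ι) (C₁ := C₁) (C := C) (M := M)
    (M₂ := 3 * M) (β := β) (κ := κ) (Cz := Cz) (N₀ := N₀) (by linarith) hC₁ C1 M1 κ0 κ1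
  obtain ⟨ε, hε⟩ : ∃ ε, ε = min ε₀ (1 / (20 * Fintype.card ι : ℝ)) := ⟨_, rfl⟩
  have nc : (0:ℝ) < 20 * Fintype.card ι := by linarith
  have ε0 : 0 < ε := by rw [hε]; exact lt_min ε₀0 (by positivity)
  have εa : ε ≤ ε₀ := by rw [hε]; exact min_le_left _ _
  have εb : 20 * (Fintype.card ι * ε) ≤ 1 := by
    have h1 : ε ≤ 1 / (20 * Fintype.card ι : ℝ) := by rw [hε]; exact min_le_right _ _
    rw [le_div_iff₀ nc] at h1
    linarith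
  refine ⟨N₁, ε, N₁1, ε0, ?_⟩
  intro σ τ U Ω S θ v₁ v₂ W G K χ h e ok ot hρ hk hv₁ hv₂ hW hχ hΩ hΩU hS hSU h0 hG hK hh he H
  have hU := ok.op
  have ok' := Ok_mono ok hΩ hΩU
  have ot' := Ok_mono ot hΩ hΩU
  have M0 : 0 < M := by linarith
  have hm : M * κ ≠ 0 := by positivity
  have m0 : 0 < M * κ := by positivity
  have G60 : ∀ z ∈ Ω, 60 ≤ G z := fun z hz => (hN₁ _ (H z hz).2).2.2.1
  have G0 : ∀ z ∈ Ω, 0 < G z := fun z hz => by linarith [G60 z hz]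
  have Gn : ∀ z ∈ Ω, G z ≠ 0 := fun z hz => (G0 z hz).ne'
  obtain ⟨t, ht⟩ : ∃ t, t = tt σ W G (M * κ) := ⟨_, rfl⟩
  have st : Sm Ω t := by rw [ht]; exact tt_sm ok' (hW.mono hΩU) hG hm Gn
  have ct : ContinuousOn t Ω := st.continuousOn
  obtain ⟨φ, hφ⟩ : ∃ φ, φ = ph σ W G (M * κ) := ⟨_, rfl⟩
  have sφ : Sm Ω φ := by rw [hφ]; exact ph_sm ok' (hW.mono hΩU) hG hm Gn
  have hχ' := hχ.mono hΩU
  -- the two cut-offs
  have z1 : ∀ z ∈ U, z ∉ S → ci χ φ z = 0 := fun z hz hs => by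
    rw [ci, h0 z hz hs, zero_mul]
  have z2 : ∀ z ∈ U, z ∉ S → co χ φ z = 0 := fun z hz hs => by
    rw [co, h0 z hz hs, zero_mul]
  have s1 : Sm U (ci χ φ) := sm_cut hU hΩ hS hSU (sci hχ' sφ) z1
  have s2 : Sm U (co χ φ) := sm_cut hU hΩ hS hSU (sco hχ' sφ) z2
  -- the sets
  have o1 : IsOpen (Ω ∩ t ⁻¹' Iio 2) := ct.isOpen_inter_preimage hΩ isOpen_Iio
  have o2 : IsOpen (Ω ∩ t ⁻¹' Ioi (-1 / 2)) := ct.isOpen_inter_preimage hΩ isOpen_Ioi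
  have u1 : U ∩ closure (U ∩ S ∩ t ⁻¹' Iic 1) ⊆ Ω ∩ t ⁻¹' Iio 2 := fun z hz => by
    obtain ⟨a, b⟩ := cl_sub hΩ hS hSU ct isClosed_Iic hz
    exact ⟨a, lt_of_le_of_lt (show t z ≤ 1 from b) (by norm_num)⟩
  have u2 : U ∩ closure (U ∩ S ∩ t ⁻¹' Ici 0) ⊆ Ω ∩ t ⁻¹' Ioi (-1 / 2) := fun z hz => by
    obtain ⟨a, b⟩ := cl_sub hΩ hS hSU ct isClosed_Ici hz
    exact ⟨a, lt_of_lt_of_le (by norm_num) (show 0 ≤ t z from b)⟩
  have y1 : ∀ z ∈ U, z ∉ closure (U ∩ S ∩ t ⁻¹' Iic 1) → ci χ φ z = 0 := fun z hz hs => by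
    by_cases hs' : z ∈ S
    · have h1 : ¬ t z ≤ 1 := fun h1 => hs (subset_closure ⟨⟨hz, hs'⟩, h1⟩)
      have h2 : Real.cos (φ z) = 0 := by
        rw [hφ]; exact ph_o (by rw [← ht]; linarith [not_le.1 h1])
      rw [ci, h2, mul_zero]
    · exact z1 z hz hs'
  have y2 : ∀ z ∈ U, z ∉ closure (U ∩ S ∩ t ⁻¹' Ici 0) → co χ φ z = 0 := fun z hz hs => by
    by_cases hs' : z ∈ S
    · have h1 : ¬ 0 ≤ t z := fun h1 => hs (subset_closure ⟨⟨hz, hs'⟩, h1⟩)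
      have h2 : Real.sin (φ z) = 0 := by
        rw [hφ]; exact ph_z (by rw [← ht]; linarith [not_le.1 h1])
      rw [co, h2, mul_zero]
    · exact z2 z hz hs'
  have tid : ∀ z ∈ Ω, nn (gr σ W z) ^ 2 = M * κ * ((1 + t z) * G z) := fun z hz => by
    rw [← dD_nn, ht]; exact tt_id hm (Gn z hz)
  -- the inner zone
  have zi := zone_in (χ := ci χ φ) (Ω := Ω ∩ t ⁻¹' Iio 2)
    (S := closure (U ∩ S ∩ t ⁻¹' Iic 1)) (h := h) (K := K) (G := G) (κ := κ) (C₁ := C₁) (C := C)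
    (M₂ := 3 * M) (β := β) (ε := ε) (εz := εz) (Cz := Cz) pz ok ot hρ hk hv₁ hv₂ hW s1 o1
    (inter_subset_left.trans hΩU) isClosed_closure u1 y1 (hK.mono inter_subset_left)
    (hG.mono inter_subset_left) (fun i => (hh i).mono inter_subset_left)
    (fun z hz => by
      have d := (H z hz.1).1
      refine ⟨d.sx, d.sy, d.wb, d.g2, ?_, d.K1, d.K2, d.dK, d.dh, d.h2, d.G2, d.ct⟩
      rw [tid z hz.1]
      have h1 : t z < 2 := hz.2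
      have h2 : 0 ≤ M * κ * G z * (2 - t z) :=
        mul_nonneg (mul_pos m0 (G0 z hz.1)).le (by linarith)
      linarith)
    ⟨N3, hC₁, C1, by linarith, β0, β1, κ0, κ1, εb, Cz0⟩
    (fun z hz => (hN₁ _ (H z hz.1).2).1)
  -- the outer zone
  have zo := out σ τ U (Ω ∩ t ⁻¹' Ioi (-1 / 2)) (closure (U ∩ S ∩ t ⁻¹' Ici 0)) θ v₁ v₂ W G
    (co χ φ) e ok ot hv₁ hv₂ hW s2 o2 (inter_subset_left.trans hΩU)
    (hG.mono inter_subset_left) (fun i => (he i).mono inter_subset_left) isClosed_closure u2 y2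
    (fun z hz => by
      have d := (H z hz.1).1
      have hw : M / 2 * κ * G z ≤ nn (gr σ W z) ^ 2 := by
        rw [tid z hz.1]
        have h1 : -1 / 2 < t z := hz.2
        have h2 : 0 ≤ M * κ * G z * (t z + 1 / 2) :=
          mul_nonneg (mul_pos m0 (G0 z hz.1)).le (by linarith)
        linarith
      refine ⟨sb_mono d.sx εa, sb_mono d.sy εa, d.wb, (hN₁ _ (H z hz.1).2).2.2.2, hw, d.ee,
        d.de, d.co ?_⟩
      rw [← nn_sq]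
      have : 0 < M / 2 * κ * G z := by have := G0 z hz.1; positivity
      linarith)
  -- the sum
  have mp : ∀ z ∈ Ω, 0 ≤ 1 / 8 * κ * G z := fun z hz => by have := G0 z hz; positivity
  have sm8 : Sm Ω fun z => 1 / 8 * κ * G z := contDiffOn_const.mul hG
  refine zone_add ok ot hv₁ hv₂ hW s1 s2 (fun z _ => ci_co χ φ z) zi zo
    (MP_ct ok ot hW hχ hΩ hΩU hS hSU h0 hG) (coP_ct ok ot hW hχ hΩ hΩU hS hSU h0 hG)
    (MIn_ct ot hW s1 hΩ hΩU hS hSU z1 hG) (cIn_ct ok ot hW s1 hΩ hΩU hS hSU z1 hG)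
    (MA_ct ok ot hW s2 hΩ hΩU hS hSU z2 sm8) (coA_ct ok ot hW s2 hΩ hΩU hS hSU z2 sm8 mp)
    fun z hz a b => ?_
  by_cases hs : z ∈ S
  swap
  · exact pay_off ok ot hS h0 z1 z2 hz hs a b
  have hzΩ := hSU ⟨hz, hs⟩
  have d := (H z hzΩ).1
  obtain ⟨-, nt, g60, -⟩ := hN₁ _ (H z hzΩ).2
  have hWΩ := hW.mono hΩU
  have rx : dD σ φ z ≤ KP (Fintype.card ι) C₁ / M * (κ * G z) := by
    rw [hφ]
    exact ph_dD ok' ok' hWΩ hG Gn hzΩ nt d.wb.g1 d.wb.w2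
  have ry : dD τ φ z ≤ KP (Fintype.card ι) C₁ / M * (κ * G z) := by
    rw [hφ]
    exact ph_dD ot' ok' hWΩ hG Gn hzΩ nt d.wb.g1' d.mx
  have hl : |σ.Λ φ z| ≤ KP (Fintype.card ι) C₁ / M * (κ * G z) := by
    rw [hφ]
    exact ph_Λ ok' hWΩ hG Gn hzΩ nt d.sx εb d.wb.g1 d.wb.w2 d.g2 d.w3
  have le := pay_le g ok' ot' hχ' sφ hzΩ d.sx d.sy εb g60 d.wb.lo rx ry hl
    (fun hn => by rw [hφ] at hn; exact ph_sin m0 (G0 z hzΩ) hn)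
    (fun hn => by
      rw [hφ] at hn
      have := ph_cos m0 (G0 z hzΩ) hn
      linarith)
  have := Q8.dens_le (σ := σ) (τ := τ) (v₁ := v₁) (v₂ := v₂) (W := W) (a := a) (b := b) le
  rw [Q8.dens_add, Q8.dens_add, Q8.dens_add, Q8.dens_add] at this
  exact this

end Vale.Agent.P088.R2.H747.P
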