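import Vale.Agent.P088.R2.H747.P.Py
import Vale.Agent.P088.R2.H285.W.PZP

/-!
# P088, stage 3: the flat pass, the abstract zone
-/

open MeasureTheory Set Filter
open scoped ContDiff Topology

noncomputable section

namespace Vale.Agent.P088.R2.H747.P

open Vale.Agent.P088.R2.H961.GW Vale.Agent.P088.R2.H644 Vale.Agent.P088.R2.H960.W
  Vale.Agent.P088.R2.H230.W Vale.Agent.P088.R2.H551.E Vale.Agent.P088.R2.H660.P
  Vale.Agent.P088.R2.H660.G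
open Vale.Agent.P088.R2.H747.SW (MA coA rh sm_cut Dz MA_ct coA_ct)

variable {E ι : Type*} [NormedAddCommGroup E] [NormedSpace ℝ E] [Fintype ι]

omit [NormedSpace ℝ E] in
theorem cl_sub {U Ω S : Set E} {t : E → ℝ} {I : Set ℝ} (hΩ : IsOpen Ω) (hS : IsClosed S)
    (hSU : U ∩ S ⊆ Ω) (ht : ContinuousOn t Ω) (hI : IsClosed I) :
    U ∩ closure (U ∩ S ∩ t ⁻¹' I) ⊆ Ω ∩ t ⁻¹' I := by
  rintro z ⟨hU, hz⟩
  have hS' : z ∈ S := closure_minimal (fun w hw => hw.1.2) hS hz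
  have hzΩ := hSU ⟨hU, hS'⟩
  have hc : ContinuousAt t z := ht.continuousAt (hΩ.mem_nhds hzΩ)
  have h1 : t z ∈ closure (t '' (U ∩ S ∩ t ⁻¹' I)) := mem_closure_image hc hz
  refine ⟨hzΩ, closure_minimal ?_ hI h1⟩
  rintro _ ⟨w, hw, rfl⟩
  exact hw.2

omit [Fintype ι] in
theorem sb_mono [DecidableEq ι] {σ : Sl E ι} {ε ε' : ℝ} {z : E} (h : Sb σ ε z) (hε : ε ≤ ε') :
    Sb σ ε' z :=
  ⟨h.sy, fun i j => (h.ss i j).trans hε, fun l i j => (h.s1 l i j).trans hε, h.k1, h.e1⟩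

theorem evk {k : ℝ} (hk : 0 < k) (a : ℝ) : ∀ᶠ G : ℝ in atTop, a ≤ k * G :=
  (tendsto_id.const_mul_atTop hk).eventually_ge_atTop a

section ct

variable {σ τ : Sl E ι} {U Ω S : Set E} {θ v₁ v₂ W G χ φ : E → ℝ} {ρ CP : ℝ}

/-- Continuity of the margin. -/
theorem MP_ct (ok : σ.Ok U θ) (ot : τ.Ok U θ) (hW : Sm U W) (hχ : Sm U χ) (hΩ : IsOpen Ω)
    (h : Ω ⊆ U) (hS : IsClosed S) (hSU : U ∩ S ⊆ Ω) (h0 : ∀ z ∈ U, z ∉ S → χ z = 0)
    (hG : Sm Ω G) : ((MP σ τ W G ρ).sm fun z => χ z ^ 2).Ct U := by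
  have hU := ot.op
  have hc : Sm U fun z => χ z ^ 2 := hχ.pow 2
  have h1 : Sm U fun z => χ z ^ 2 * G z :=
    sm_cut hU hΩ hS hSU ((hc.mono h).mul hG) fun z hz hs => by rw [h0 z hz hs]; ring
  have h2 : Sm U fun z => χ z ^ 2 * G z ^ 2 :=
    sm_cut hU hΩ hS hSU ((hc.mono h).mul (hG.pow 2)) fun z hz hs => by rw [h0 z hz hs]; ring
  have h3 : Sm U (τ.F W) := ot.sG hW hW
  have h4 : Sm U (σ.F W) := ok.sG hW hW
  refine ⟨(hc.mul contDiffOn_const).continuousOn, ?_, ?_,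
    (hc.mul contDiffOn_const).continuousOn, ?_, ?_, (hc.mul contDiffOn_const).continuousOn,
    (hc.mul contDiffOn_const).continuousOn⟩
  · have : Sm U fun z => ρ * (χ z ^ 2 * G z) := contDiffOn_const.mul h1
    refine this.continuousOn.congr fun z _ => ?_
    simp only [Q8.sm, MP, Pi.mul_apply]; ring
  · have : Sm U fun z => ρ * (χ z ^ 2 * G z) := contDiffOn_const.mul h1
    refine this.continuousOn.congr fun z _ => ?_
    simp only [Q8.sm, MP, Pi.mul_apply]; ring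
  · have : Sm U fun z => ρ * (χ z ^ 2 * G z ^ 2) + ρ * (χ z ^ 2 * G z * σ.F W z) :=
      (contDiffOn_const.mul h2).add (contDiffOn_const.mul (h1.mul h4))
    refine this.continuousOn.congr fun z _ => ?_
    simp only [Q8.sm, MP, Pi.mul_apply]; ring
  · have : Sm U fun z => ρ * (χ z ^ 2 * G z * τ.F W z) :=
      contDiffOn_const.mul (h1.mul h3)
    refine this.continuousOn.congr fun z _ => ?_
    simp only [Q8.sm, MP, Pi.mul_apply]; ring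

theorem om4_sm (ok : σ.Ok U θ) (ot : τ.Ok U θ) (hχ : Sm U χ) : Sm U (om4 σ τ χ) :=
  (((sdD ok hχ).add (sdD ot hχ)).add ((ok.sL hχ).pow 2)).add ((ot.sL hχ).pow 2)

theorem om4_z (ok : σ.Ok U θ) (ot : τ.Ok U θ) (hS : IsClosed S)
    (h0 : ∀ z ∈ U, z ∉ S → χ z = 0) : ∀ z ∈ U, z ∉ S → om4 σ τ χ z = 0 := by
  intro z hz hs
  unfold om4
  rw [dDz ok.op hS h0 z hz hs, dDz ok.op hS h0 z hz hs, Lz ok hS h0 z hz hs,
    Lz ot hS h0 z hz hs]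
  norm_num

/-- Continuity of the cost. -/
theorem coP_ct (ok : σ.Ok U θ) (ot : τ.Ok U θ) (hW : Sm U W) (hχ : Sm U χ) (hΩ : IsOpen Ω)
    (h : Ω ⊆ U) (hS : IsClosed S) (hSU : U ∩ S ⊆ Ω) (h0 : ∀ z ∈ U, z ∉ S → χ z = 0)
    (hG : Sm Ω G) : (coP σ τ W G (om4 σ τ χ) CP).Ct U := by
  have so := om4_sm ok ot hχ
  have h1 : Sm U fun z => om4 σ τ χ z * G z :=
    sm_cut ok.op hΩ hS hSU ((so.mono h).mul hG) fun z hz hs => by
      rw [om4_z ok ot hS h0 z hz hs]; ring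
  have h3 : Sm U (τ.F W) := ot.sG hW hW
  have h4 : Sm U (σ.F W) := ok.sG hW hW
  refine ⟨continuousOn_const, (contDiffOn_const.mul so).continuousOn,
    (contDiffOn_const.mul so).continuousOn, continuousOn_const, ?_,
    (contDiffOn_const.mul (so.mul h3)).continuousOn, continuousOn_const, continuousOn_const⟩
  have : Sm U fun z => CP * (om4 σ τ χ z * G z + om4 σ τ χ z * σ.F W z) :=
    contDiffOn_const.mul (h1.add (so.mul h4))
  refine this.continuousOn.congr fun z _ => ?_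
  simp only [coP]; ring

theorem sub_cut {f : E → ℝ} (hU : IsOpen U) (hΩ : IsOpen Ω) (hS : IsClosed S)
    (hSU : U ∩ S ⊆ Ω) (hf : Sm Ω f) (h0 : ∀ z ∈ U, z ∉ S → χ z = 0) (hχ : Sm U χ)
    (h : Ω ⊆ U) : Sm U fun z => χ z * f z :=
  sm_cut hU hΩ hS hSU ((hχ.mono h).mul hf) fun z hz hs => by rw [h0 z hz hs, zero_mul]

end ct

section off

variable {σ τ : Sl E ι} {U S : Set E} {θ v₁ v₂ W G χ χ₁ χ₂ m : E → ℝ} {ρ CP κ β Cz η κ₀ : ℝ}
  {z : E}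

/-- Off the support everything is zero. -/
theorem pay_off (ok : σ.Ok U θ) (ot : τ.Ok U θ) (hS : IsClosed S)
    (h0 : ∀ z ∈ U, z ∉ S → χ z = 0) (h1 : ∀ z ∈ U, z ∉ S → χ₁ z = 0)
    (h2 : ∀ z ∈ U, z ∉ S → χ₂ z = 0) (hz : z ∈ U) (hs : z ∉ S) (a b : E → ℝ) :
    ((MP σ τ W G ρ).sm fun z => χ z ^ 2).dens σ τ v₁ v₂ W a b z +
      ((cIn σ τ W G χ₁ κ Cz).dens σ τ v₁ v₂ W a b z + (coA σ τ W m χ₂ η).dens σ τ v₁ v₂ W a b z) ≤
      (coP σ τ W G (om4 σ τ χ) CP).dens σ τ v₁ v₂ W a b z +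
      (((MIn τ W G κ β).sm fun z => χ₁ z ^ 2).dens σ τ v₁ v₂ W a b z +
        ((MA σ τ W m κ₀).sm fun z => χ₂ z ^ 2).dens σ τ v₁ v₂ W a b z) := by
  have hU := ok.op
  have a1 := dDz (σ := σ) hU hS h1 z hz hs
  have a2 := dDz (σ := τ) hU hS h1 z hz hs
  have a3 := Lz ok hS h1 z hz hs
  have d1 : ∀ i, σ.D i χ₂ z = 0 := fun i => Dz (σ := σ) hU hS h2 z hz hs i
  have d2 : ∀ i, τ.D i χ₂ z = 0 := fun i => Dz (σ := τ) hU hS h2 z hz hs i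
  have g1 : σ.Γ χ₂ χ₂ z = 0 := by unfold Sl.Γ; simp [d1]
  have g2 : τ.Γ χ₂ χ₂ z = 0 := by unfold Sl.Γ; simp [d2]
  have o := om4_z ok ot hS h0 z hz hs
  rw [Q8.dens_sm, Q8.dens_sm, Q8.dens_sm, h0 z hz hs, h1 z hz hs, h2 z hz hs]
  unfold Q8.dens
  simp only [cIn, coA, coP, a1, a2, a3, d1, d2, g1, g2, o]
  simp

end off

end Vale.Agent.P088.R2.H747.P
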